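import Vale.Agent.P088.H53.F

/-!
# P088, derivatives of Fourier series and of component functions
-/

open MeasureTheory Set
open scoped ContDiff Matrix

noncomputable section

namespace Vale.Agent.P088.LR.G

open Vale.Agent.P088.LR

variable {n : ℕ}

lemma fr_zero (k : Ix n) (i : Fin n) : fr 0 k i = (k i : ℝ) := by simp [fr]

lemma abs_le_wt (k : Ix n) (i : Fin n) : |(k i : ℝ)| ≤ wt k := by
  unfold wt
  have := Finset.single_le_sum (f := fun j => |(k j : ℝ)|) (fun _ _ => abs_nonneg _)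
    (Finset.mem_univ i)
  linarith

/-- The coefficients of the derivative. -/
def dc (i : Fin n) (c : Ix n → ℂ) (k : Ix n) : ℂ :=
  2 * Real.pi * Complex.I * ((k i : ℝ) : ℂ) * c k

lemma norm_dc (i : Fin n) (c : Ix n → ℂ) (k : Ix n) :
    ‖dc i c k‖ = 2 * Real.pi * |(k i : ℝ)| * ‖c k‖ := by
  unfold dc
  rw [norm_mul, norm_mul, norm_mul, norm_mul, Complex.norm_I, Complex.norm_real, Complex.norm_real,
    Real.norm_of_nonneg Real.pi_pos.le, Complex.norm_ofNat, Real.norm_eq_abs]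
  ring

lemma rd_dc {c : Ix n → ℂ} (hc : RD c) (i : Fin n) : RD (dc i c) := by
  refine rdMono hc (C := 2 * Real.pi) (e := 1) fun k => ?_
  rw [norm_dc, pow_one]
  exact mul_le_mul_of_nonneg_right (mul_le_mul_of_nonneg_left (abs_le_wt k i) (by positivity))
    (norm_nonneg _)

lemma pd_Es (a1 : RowA1) {c : Ix n → ℂ} (hc : RD c) (i : Fin n) :
    pd i (Es 0 c) = Es 0 (dc i c) := by
  funext x
  rw [(a1 (0 : V n) c hc).2 i x]
  congr 1
  funext k
  simp [dc, fr_zero]

lemma smooth_Es (a1 : RowA1) {c : Ix n → ℂ} (hc : RD c) : ContDiff ℝ ∞ (Es 0 c) :=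
  (a1 (0 : V n) c hc).1

lemma fderiv_eq_sum (f : V n → ℂ) (x : V n) :
    fderiv ℝ f x = ∑ i, ContinuousLinearMap.smulRightL ℝ (V n) ℂ
      (ContinuousLinearMap.proj (R := ℝ) (φ := fun _ : Fin n => ℝ) i) (pd i f x) := by
  refine ContinuousLinearMap.ext fun v => ?_
  rw [sum_apply]
  simp only [ContinuousLinearMap.smulRightL_apply_apply, ContinuousLinearMap.smulRight_apply,
    ContinuousLinearMap.proj_apply, pd]
  conv_lhs => rw [show v = ∑ i, v i • (Pi.single i (1 : ℝ) : V n) from by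
    simpa using (pi_eq_sum_univ' v)]
  rw [map_sum]
  simp

lemma norm_smulRightL_proj_le (i : Fin n) : ‖ContinuousLinearMap.smulRightL ℝ (V n) ℂ
    (ContinuousLinearMap.proj (R := ℝ) (φ := fun _ : Fin n => ℝ) i)‖ ≤ 1 := by
  refine ContinuousLinearMap.opNorm_le_bound _ zero_le_one fun z => ?_
  refine ContinuousLinearMap.opNorm_le_bound _ (by positivity) fun v => ?_
  simp only [ContinuousLinearMap.smulRightL_apply_apply, ContinuousLinearMap.smulRight_apply,
    ContinuousLinearMap.proj_apply, norm_smul]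
  rw [one_mul, mul_comm]
  exact mul_le_mul_of_nonneg_left (norm_le_pi_norm v i) (norm_nonneg _)

lemma smooth_pd {f : V n → ℂ} (hf : ContDiff ℝ ∞ f) (i : Fin n) : ContDiff ℝ ∞ (pd i f) := by
  have h : ContDiff ℝ ∞ (fderiv ℝ f) := hf.fderiv_right (by exact_mod_cast le_top)
  exact h.clm_apply contDiff_const

lemma norm_iter_succ_le {f : V n → ℂ} (hf : ContDiff ℝ ∞ f) (l : ℕ) (x : V n) :
    ‖iteratedFDeriv ℝ (l + 1) f x‖ ≤ ∑ i, ‖iteratedFDeriv ℝ l (pd i f) x‖ := by
  rw [← norm_iteratedFDeriv_fderiv]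
  have h1 : fderiv ℝ f = fun x => ∑ i, ContinuousLinearMap.smulRightL ℝ (V n) ℂ
      (ContinuousLinearMap.proj (R := ℝ) (φ := fun _ : Fin n => ℝ) i) (pd i f x) :=
    funext fun x => fderiv_eq_sum f x
  have h2 : ∀ i, ContDiff ℝ l (pd i f) := fun i => (smooth_pd hf i).of_le (by exact_mod_cast le_top)
  have h4 : ∀ i ∈ (Finset.univ : Finset (Fin n)), ContDiffAt ℝ l (fun x =>
      ContinuousLinearMap.smulRightL ℝ (V n) ℂ
      (ContinuousLinearMap.proj (R := ℝ) (φ := fun _ : Fin n => ℝ) i) (pd i f x)) x := fun i _ =>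
    (((ContinuousLinearMap.smulRightL ℝ (V n) ℂ
      (ContinuousLinearMap.proj (R := ℝ) (φ := fun _ : Fin n => ℝ) i)).contDiff).comp
        (h2 i)).contDiffAt
  rw [h1, iteratedFDeriv_fun_sum_apply h4]
  refine (norm_sum_le _ _).trans (Finset.sum_le_sum fun i _ => ?_)
  have h3 := ContinuousLinearMap.norm_iteratedFDeriv_comp_left
    (ContinuousLinearMap.smulRightL ℝ (V n) ℂ
      (ContinuousLinearMap.proj (R := ℝ) (φ := fun _ : Fin n => ℝ) i))
    (x := x) (h2 i).contDiffAt (le_refl _)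
  refine h3.trans ?_
  calc _ ≤ 1 * ‖iteratedFDeriv ℝ l (pd i f) x‖ :=
        mul_le_mul_of_nonneg_right (norm_smulRightL_proj_le i) (norm_nonneg _)
    _ = _ := one_mul _

lemma sum_nm_dc_le {c : Ix n → ℂ} (hc : RD c) (l : ℕ) :
    ∑ i, nm l (dc i c) ≤ 2 * Real.pi * nm (l + 1) c := by
  unfold nm
  rw [← Summable.tsum_finsetSum fun i _ => rd_dc hc i l, ← tsum_mul_left]
  refine (summable_sum fun i _ => rd_dc hc i l).tsum_le_tsum (fun k => ?_)
    ((hc (l + 1)).mul_left _)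
  simp_rw [norm_dc]
  rw [← Finset.mul_sum, ← Finset.sum_mul, ← Finset.mul_sum]
  have h1 : ∑ i, |(k i : ℝ)| ≤ wt k := by unfold wt; linarith
  have h2 := wt_nonneg k
  calc wt k ^ l * ((2 * Real.pi * ∑ i, |(k i : ℝ)|) * ‖c k‖)
      = (∑ i, |(k i : ℝ)|) * (wt k ^ l * (2 * Real.pi) * ‖c k‖) := by ring
    _ ≤ wt k * (wt k ^ l * (2 * Real.pi) * ‖c k‖) :=
        mul_le_mul_of_nonneg_right h1 (by positivity)
    _ = 2 * Real.pi * (wt k ^ (l + 1) * ‖c k‖) := by rw [pow_succ]; ring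

/-- Derivatives of a Fourier series are bounded by the weighted norms. -/
lemma norm_iter_Es (a1 : RowA1) (l : ℕ) : ∀ {c : Ix n → ℂ}, RD c → ∀ x,
    ‖iteratedFDeriv ℝ l (Es 0 c) x‖ ≤ (2 * Real.pi) ^ l * nm l c := by
  induction l with
  | zero =>
    intro c hc x
    rw [norm_iteratedFDeriv_zero, pow_zero, one_mul]
    exact norm_Es_le hc 0 x
  | succ l ih =>
    intro c hc x
    refine (norm_iter_succ_le (smooth_Es a1 hc) l x).trans ?_
    calc ∑ i, ‖iteratedFDeriv ℝ l (pd i (Es 0 c)) x‖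
        ≤ ∑ i, (2 * Real.pi) ^ l * nm l (dc i c) := Finset.sum_le_sum fun i _ => by
          rw [pd_Es a1 hc]; exact ih (rd_dc hc i) x
      _ = (2 * Real.pi) ^ l * ∑ i, nm l (dc i c) := by rw [Finset.mul_sum]
      _ ≤ (2 * Real.pi) ^ l * (2 * Real.pi * nm (l + 1) c) :=
          mul_le_mul_of_nonneg_left (sum_nm_dc_le hc l) (by positivity)
      _ = _ := by rw [pow_succ]; ring

/-- Derivatives of a vector valued function. -/
lemma norm_iter_pi {f : V n → V n} {l : ℕ} {x : V n} {B : ℝ} (hB : 0 ≤ B)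
    (hf : ContDiffAt ℝ l f x) (h : ∀ a, ‖iteratedFDeriv ℝ l (fun y => f y a) x‖ ≤ B) :
    ‖iteratedFDeriv ℝ l f x‖ ≤ B := by
  refine ContinuousMultilinearMap.opNorm_le_bound hB fun m => ?_
  refine (pi_norm_le_iff_of_nonneg (by positivity)).2 fun a => ?_
  have h1 := ContinuousLinearMap.iteratedFDeriv_comp_left
    (ContinuousLinearMap.proj (R := ℝ) (φ := fun _ : Fin n => ℝ) a) hf (le_refl (l : ℕ∞ω))
  have h2 : (iteratedFDeriv ℝ l f x m) a = iteratedFDeriv ℝ l (fun y => f y a) x m := by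
    have h3 : (fun y => f y a)
      = (ContinuousLinearMap.proj (R := ℝ) (φ := fun _ : Fin n => ℝ) a) ∘ f := rfl
    rw [h3, h1]; rfl
  rw [h2]
  exact ((iteratedFDeriv ℝ l (fun y => f y a) x).le_opNorm m).trans
    (mul_le_mul_of_nonneg_right (h a) (by positivity))

end Vale.Agent.P088.LR.G
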