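import Vale.Agent.P088.H53.G
import Vale.Agent.P088.H501.A12
import Vale.Agent.P088.H776.A3
import Vale.Agent.P088.H102.Neu

/-!
# P088, row GAUGE without hypotheses
-/

open MeasureTheory Set
open scoped ContDiff Matrix

namespace Vale.Agent.P088.LR.G

open Vale.Agent.P088.LR

/-- Harmonic coordinates `x + w x` for a coefficient matrix close to the identity with the
orthogonality property `Star`. -/
theorem gauge_row : ∀ (n M : ℕ), ∃ C ε₀ : ℝ, 0 < C ∧ 0 < ε₀ ∧ ∀ (Ω : Set (V n)), IsOpen Ω →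
    interior (closure Ω) = Ω → Ω ⊆ core n → ∀ s : MF n, SmM s → (∀ x, (s x).IsSymm) →
    (∀ x ∉ Ω, s x = 1) → Star Ω s → ∀ δ ≤ ε₀, 0 ≤ δ → (∀ i j, nm M (cf 0 (ent s i j)) ≤ δ) →
    ∃ w : V n → V n, ContDiff ℝ ∞ w ∧ (∀ x ∉ Ω, w x = 0) ∧ Cl (M + 1) (C * δ) w ∧
      ∀ a x, dv s (fun y => ((y a + w y a : ℝ) : ℂ)) x = 0 :=
  gauge H501.rowA1 H501.rowA2 Vale.Agent.P088.H776.rowA3 Vale.Agent.P088.H102.neu

end Vale.Agent.P088.LR.G
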