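import Vale.Agent.P088.H53.D

/-!
# P088, row GAUGE, first half: the solution on the torus
-/

open MeasureTheory Set
open scoped ContDiff Matrix

noncomputable section

namespace Vale.Agent.P088.LR.G

open Vale.Agent.P088.LR

variable {n : ℕ}

/-- `|l|²`. -/
def q2 (l : Ix n) : ℝ := ∑ j, (l j : ℝ) ^ 2

lemma q2_nonneg (l : Ix n) : 0 ≤ q2 l := Finset.sum_nonneg fun _ _ => sq_nonneg _

lemma sq_le_q2 (l : Ix n) (i : Fin n) : (l i : ℝ) ^ 2 ≤ q2 l :=
  Finset.single_le_sum (f := fun j => (l j : ℝ) ^ 2) (fun _ _ => sq_nonneg _) (Finset.mem_univ i)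

lemma q2_ne_zero {l : Ix n} (hl : l ≠ 0) : q2 l ≠ 0 := by
  intro h
  apply hl
  funext i
  have h1 := sq_le_q2 l i
  rw [h] at h1
  have h2 : (l i : ℝ) = 0 := by nlinarith [sq_nonneg (l i : ℝ)]
  exact_mod_cast h2

lemma q2_zero : q2 (0 : Ix n) = 0 := by simp [q2]

lemma abs_mul_abs_le (l : Ix n) (i j : Fin n) : |(l i : ℝ)| * |(l j : ℝ)| ≤ q2 l := by
  have h1 := sq_le_q2 l i
  have h2 := sq_le_q2 l j
  nlinarith [sq_nonneg (|(l i : ℝ)| - |(l j : ℝ)|), sq_abs (l i : ℝ), sq_abs (l j : ℝ)]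

lemma abs_le_q2 (l : Ix n) (j : Fin n) : |(l j : ℝ)| ≤ q2 l := by
  refine le_trans ?_ (sq_le_q2 l j)
  rcases eq_or_ne (l j) 0 with h | h
  · simp [h]
  · have h1 : (1 : ℝ) ≤ |(l j : ℝ)| := by
      have := Int.one_le_abs h
      calc (1 : ℝ) ≤ ((|l j| : ℤ) : ℝ) := by exact_mod_cast this
        _ = |(l j : ℝ)| := by push_cast; rfl
    rw [← sq_abs]; nlinarith

lemma wt_mul_abs_le (l : Ix n) (j : Fin n) : wt l * |(l j : ℝ)| ≤ (n + 1) * q2 l := by
  unfold wt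
  rw [add_mul, one_mul, Finset.sum_mul]
  have h1 : ∑ i, |(l i : ℝ)| * |(l j : ℝ)| ≤ ∑ _i : Fin n, q2 l :=
    Finset.sum_le_sum fun i _ => abs_mul_abs_le l i j
  simp only [Finset.sum_const, Finset.card_univ, Fintype.card_fin, nsmul_eq_mul] at h1
  have h2 := abs_le_q2 l j
  linarith

/-- The projection `l_m l_j / |l|²`. -/
def PP (l : Ix n) (m j : Fin n) : ℂ := (((l m : ℝ) * (l j : ℝ) / q2 l : ℝ) : ℂ)

lemma norm_PP_le (l : Ix n) (m j : Fin n) : ‖PP l m j‖ ≤ 1 := by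
  unfold PP
  rw [Complex.norm_real, Real.norm_eq_abs, abs_div, abs_mul, abs_of_nonneg (q2_nonneg l)]
  exact div_le_one_of_le₀ (abs_mul_abs_le l m j) (q2_nonneg l)

/-- `P F`. -/
def GG (y : Ix n → Fin n → ℂ) (m : Fin n) (l : Ix n) : ℂ := ∑ j, PP l m j * y l j

lemma norm_GG_le (y : Ix n → Fin n → ℂ) (m : Fin n) (l : Ix n) :
    ‖GG y m l‖ ≤ ∑ j, ‖y l j‖ := by
  refine (norm_sum_le _ _).trans (Finset.sum_le_sum fun j _ => ?_)
  rw [norm_mul]
  exact mul_le_of_le_one_left (norm_nonneg _) (norm_PP_le l m j)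

lemma rd_GG {y : Ix n → Fin n → ℂ} (hy : ∀ i, RD fun k => y k i) (m : Fin n) : RD (GG y m) :=
  rdOfSum Finset.univ hy (C := 1) (e := 0) fun k => by
    rw [pow_zero, one_mul, one_mul]; exact norm_GG_le y m k

/-- The coefficients of `w`. -/
def wh (y : Ix n → Fin n → ℂ) (l : Ix n) : ℂ :=
  Complex.I * (∑ j, ((l j : ℝ) : ℂ) * y l j) / ((2 * Real.pi * q2 l : ℝ) : ℂ)

lemma wh_zero (y : Ix n → Fin n → ℂ) : wh y 0 = 0 := by simp [wh]

lemma wt_norm_wh_le (y : Ix n → Fin n → ℂ) (l : Ix n) :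
    wt l * ‖wh y l‖ ≤ (n + 1) * ∑ j, ‖y l j‖ := by
  rcases eq_or_ne l 0 with rfl | hl
  · rw [wh_zero, norm_zero, mul_zero]
    have : 0 ≤ ∑ j, ‖y 0 j‖ := Finset.sum_nonneg fun _ _ => norm_nonneg _
    positivity
  have hq : 0 < q2 l := lt_of_le_of_ne (q2_nonneg l) (q2_ne_zero hl).symm
  unfold wh
  rw [norm_div, norm_mul, Complex.norm_I, one_mul, Complex.norm_real, Real.norm_of_nonneg
    (by positivity), mul_div_assoc', div_le_iff₀ (by positivity)]
  calc wt l * ‖∑ j, ((l j : ℝ) : ℂ) * y l j‖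
      ≤ wt l * ∑ j, |(l j : ℝ)| * ‖y l j‖ := by
        refine mul_le_mul_of_nonneg_left ?_ (wt_nonneg l)
        refine (norm_sum_le _ _).trans (Finset.sum_le_sum fun j _ => ?_)
        rw [norm_mul, Complex.norm_real, Real.norm_eq_abs]
    _ = ∑ j, (wt l * |(l j : ℝ)|) * ‖y l j‖ := by
        rw [Finset.mul_sum]; exact Finset.sum_congr rfl fun j _ => by ring
    _ ≤ ∑ j, ((n + 1) * q2 l) * ‖y l j‖ := Finset.sum_le_sum fun j _ =>
        mul_le_mul_of_nonneg_right (wt_mul_abs_le l j) (norm_nonneg _)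
    _ = (n + 1) * (∑ j, ‖y l j‖) * q2 l := by rw [← Finset.mul_sum]; ring
    _ ≤ (n + 1) * (∑ j, ‖y l j‖) * (2 * Real.pi * q2 l) := by
        have h1 : 0 ≤ ∑ j, ‖y l j‖ := Finset.sum_nonneg fun _ _ => norm_nonneg _
        refine mul_le_mul_of_nonneg_left ?_ (by positivity)
        nlinarith [Real.pi_gt_three]

lemma rd_wh {y : Ix n → Fin n → ℂ} (hy : ∀ i, RD fun k => y k i) : RD (wh y) :=
  rdOfSum Finset.univ hy (C := n + 1) (e := 0) fun k => by
    rw [pow_zero, mul_one]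
    refine le_trans ?_ (wt_norm_wh_le y k)
    exact le_mul_of_one_le_left (norm_nonneg _) (wt_one_le k)

lemma nm_wh_le {y : Ix n → Fin n → ℂ} (hy : ∀ i, RD fun k => y k i) (m : ℕ) :
    nm (m + 1) (wh y) ≤ (n + 1) * ∑ i, nm m fun k => y k i :=
  nm_le_of_sum Finset.univ (F := fun i k => y k i) hy fun k => by
    rw [← Finset.mul_sum, pow_succ, mul_assoc]
    calc wt k ^ m * (wt k * ‖wh y k‖) ≤ wt k ^ m * ((n + 1) * ∑ j, ‖y k j‖) :=
          mul_le_mul_of_nonneg_left (wt_norm_wh_le y k) (pow_nonneg (wt_nonneg k) m)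
      _ = _ := by ring

/-- `Lap w = - div F` in Fourier coefficients. -/
lemma wh_eq (y : Ix n → Fin n → ℂ) (k : Ix n) :
    2 * Real.pi * (∑ i, ((k i : ℝ) : ℂ) ^ 2) * wh y k = Complex.I * ∑ i, ((k i : ℝ) : ℂ) * y k i := by
  rcases eq_or_ne k 0 with rfl | hk
  · simp
  have hq : ((q2 k : ℝ) : ℂ) ≠ 0 := by exact_mod_cast q2_ne_zero hk
  have h1 : (∑ i, ((k i : ℝ) : ℂ) ^ 2) = ((q2 k : ℝ) : ℂ) := by unfold q2; push_cast; rfl
  have hp : (Real.pi : ℂ) ≠ 0 := by exact_mod_cast Real.pi_ne_zero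
  rw [h1]
  unfold wh
  push_cast
  field_simp

lemma dc_wh (y : Ix n → Fin n → ℂ) (m : Fin n) (k : Ix n) : dc m (wh y) k = -GG y m k := by
  rcases eq_or_ne k 0 with rfl | hk
  · simp [dc, GG, PP]
  have hq : ((q2 k : ℝ) : ℂ) ≠ 0 := by exact_mod_cast q2_ne_zero hk
  have hp : (Real.pi : ℂ) ≠ 0 := by exact_mod_cast Real.pi_ne_zero
  have h1 : GG y m k = ((k m : ℝ) : ℂ) * (∑ j, ((k j : ℝ) : ℂ) * y k j) / ((q2 k : ℝ) : ℂ) := by
    unfold GG PP
    rw [Finset.mul_sum, Finset.sum_div]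
    exact Finset.sum_congr rfl fun j _ => by push_cast; ring
  rw [h1]
  unfold dc wh
  push_cast
  field_simp
  rw [Complex.I_sq]
  ring

/-- The Neumann solution. -/
lemma neumann (a2 : RowA2) (neu : RowNEU) (M : ℕ) (h : Fin n → Fin n → Ix n → ℂ)
    (hh : ∀ i j, RD (h i j)) (a : Fin n) (δ : ℝ) (hδ : n ^ 2 * δ ≤ 1 / 2)
    (hM : ∀ i j, nm M (h i j) ≤ δ) :
    ∃ y : Ix n → Fin n → ℂ, (∀ i, RD fun k => y k i) ∧
      (∀ k i, y k i = h i a k - ∑ m, cv (h i m) (GG y m) k) ∧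
      (∑ i, nm M fun k => y k i) ≤ 2 * (n * δ) := by
  obtain ⟨y, hy, he, hb⟩ := neu (n := n) (d := n)
    (fun k l i j => -∑ m, h i m (k - l) * PP l m j) (fun k => ∑ i, ∑ m, ‖h i m k‖)
    (fun k i => h i a k)
    (fun m => by
      have h1 : Summable fun k : Ix n => ∑ i, ∑ j, wt k ^ m * ‖h i j k‖ :=
        summable_sum fun i _ => summable_sum fun j _ => hh i j m
      simpa only [Finset.mul_sum] using h1)
    (fun k => Finset.sum_nonneg fun _ _ => Finset.sum_nonneg fun _ _ => norm_nonneg _)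
    (fun k l i => by
      refine Finset.sum_le_sum fun j _ => ?_
      rw [norm_neg]
      refine (norm_sum_le _ _).trans (Finset.sum_le_sum fun m _ => ?_)
      rw [norm_mul]
      exact mul_le_of_le_one_right (norm_nonneg _) (norm_PP_le l m i))
    (fun i => hh i a) M
    (by
      have h1 : ∑' k : Ix n, wt k ^ M * ∑ i, ∑ m, ‖h i m k‖ = ∑ i, ∑ m, nm M (h i m) := by
        simp_rw [Finset.mul_sum]
        rw [Summable.tsum_finsetSum fun i _ => summable_sum fun j _ => hh i j M]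
        refine Finset.sum_congr rfl fun i _ => ?_
        rw [Summable.tsum_finsetSum fun j _ => hh i j M]
        rfl
      rw [h1]
      calc ∑ i, ∑ m, nm M (h i m) ≤ ∑ _i : Fin n, ∑ _m : Fin n, δ :=
            Finset.sum_le_sum fun i _ => Finset.sum_le_sum fun m _ => hM i m
        _ = n ^ 2 * δ := by simp; ring
        _ ≤ 1 / 2 := hδ)
  refine ⟨y, hy, fun k i => ?_, ?_⟩
  · have hs : ∀ m, Summable fun l => h i m (k - l) * GG y m l := fun m =>
      (a2 (0 : V n) 0 (h i m) (GG y m) (hh i m) (rd_GG hy m)).2.1 k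
    rw [he k i, sub_eq_add_neg]
    congr 1
    unfold cv
    rw [← Summable.tsum_finsetSum fun m _ => hs m, ← tsum_neg]
    refine tsum_congr fun l => ?_
    simp only [GG, neg_mul, Finset.sum_mul, Finset.mul_sum, Finset.sum_neg_distrib]
    rw [Finset.sum_comm]
    congr 1
    exact Finset.sum_congr rfl fun m _ => Finset.sum_congr rfl fun j _ => by ring
  · refine (hb M le_rfl).trans ?_
    refine mul_le_mul_of_nonneg_left ?_ (by norm_num)
    calc ∑ i, nm M (fun k => h i a k) ≤ ∑ _i : Fin n, δ := Finset.sum_le_sum fun i _ => hM i a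
      _ = n * δ := by simp

/-- Output of the first half. -/
structure Tor (s : MF n) (a : Fin n) (c : Ix n → ℂ) (y : Ix n → Fin n → ℂ) : Prop where
  rc : RD c
  ry : ∀ i, RD fun k => y k i
  z : c 0 = 0
  eq : ∀ k, 2 * Real.pi * (∑ i, ((k i : ℝ) : ℂ) ^ 2) * c k = Complex.I * ∑ i, ((k i : ℝ) : ℂ) * y k i
  rep : ∀ x ∈ cube n, ∀ i, Es 0 (fun k => y k i) x
    = ∑ j, ent s i j x * ((if j = a then 1 else 0) + pd j (Es 0 c) x)

lemma smooth_ent {s : MF n} (hs : SmM s) (i j : Fin n) : ContDiff ℝ ∞ (ent s i j) := by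
  unfold ent
  exact Complex.ofRealCLM.contDiff.comp ((hs i j).sub contDiff_const)

lemma tsupport_ent {Ω : Set (V n)} (hcore : Ω ⊆ core n) {s : MF n} (h1 : ∀ x ∉ Ω, s x = 1)
    (i j : Fin n) : tsupport (ent s i j) ⊆ core n := by
  refine closure_minimal (fun x hx => ?_) (isClosed_core n)
  by_contra hc
  exact hx (by simp [ent, h1 x fun h => hc (hcore h)])

theorem tor (a1 : RowA1) (a2 : RowA2) (a3 : RowA3) (neu : RowNEU) (M : ℕ) {Ω : Set (V n)}
    (hcore : Ω ⊆ core n) {s : MF n} (hs : SmM s) (h1 : ∀ x ∉ Ω, s x = 1) {δ : ℝ}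
    (hδ : n ^ 2 * δ ≤ 1 / 2) (hM : ∀ i j, nm M (cf 0 (ent s i j)) ≤ δ) (a : Fin n) :
    ∃ c y, Tor s a c y ∧ nm (M + 1) c ≤ (n + 1) * (2 * (n * δ)) := by
  have h3 : ∀ i j, RD (cf 0 (ent s i j)) ∧ ∀ x ∈ cube n, ent s i j x
      = Es 0 (cf 0 (ent s i j)) x := fun i j => by
    obtain ⟨C, -, h⟩ := a3 n 0
    have h4 := h (ent s i j) (smooth_ent hs i j)
      ((tsupport_ent hcore h1 i j).trans (core_subset_cube n)) 0 (fun j => by simp)
    exact ⟨h4.1, h4.2.1⟩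
  obtain ⟨y, hy, he, hb⟩ := neumann a2 neu M (fun i j => cf 0 (ent s i j)) (fun i j => (h3 i j).1)
    a δ hδ hM
  have hG : ∀ m, RD (GG y m) := rd_GG hy
  have hcv : ∀ i m, RD (cv (cf 0 (ent s i m)) (GG y m)) := fun i m =>
    (a2 (0 : V n) 0 _ _ (h3 i m).1 (hG m)).1
  refine ⟨wh y, y, ⟨rd_wh hy, hy, wh_zero y, wh_eq y, fun x hx i => ?_⟩, ?_⟩
  · have e1 : (fun k => y k i)
        = fun k => cf 0 (ent s i a) k - ∑ m, cv (cf 0 (ent s i m)) (GG y m) k :=
      funext fun k => he k i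
    have e2 : ∀ m, Es 0 (cv (cf 0 (ent s i m)) (GG y m)) x
        = -(ent s i m x * pd m (Es 0 (wh y)) x) := fun m => by
      have h5 := (a2 (0 : V n) 0 _ _ (h3 i m).1 (hG m)).2.2.1 x
      rw [add_zero] at h5
      rw [← h5, ← (h3 i m).2 x hx, pd_Es a1 (rd_wh hy)]
      have h6 : dc m (wh y) = fun k => -GG y m k := funext fun k => dc_wh y m k
      rw [h6, Es_neg]
      ring
    rw [e1, Es_sub (h3 i a).1 (rdSum _ (hcv i)), Es_sum _ (hcv i), ← (h3 i a).2 x hx]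
    simp_rw [e2]
    simp only [Finset.sum_neg_distrib, sub_neg_eq_add, mul_add, Finset.sum_add_distrib]
    congr 1
    simp
  · exact (nm_wh_le hy M).trans (mul_le_mul_of_nonneg_left hb (by positivity))

end Vale.Agent.P088.LR.G
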