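import Vale.Agent.P088.H53.T

/-!
# P088, row GAUGE: the equation on the cube, constancy off `Ω`
-/

open MeasureTheory Set
open scoped ContDiff Matrix

noncomputable section

namespace Vale.Agent.P088.LR.G

open Vale.Agent.P088.LR

variable {n : ℕ}

/-- The complex function `y_a + w`. -/
def Wf (a : Fin n) (c : Ix n → ℂ) (y : V n) : ℂ := ((y a : ℝ) : ℂ) + Es 0 c y

lemma smooth_Wf (a1 : RowA1) {c : Ix n → ℂ} (hc : RD c) (a : Fin n) : ContDiff ℝ ∞ (Wf a c) := by
  have h : ContDiff ℝ ∞ (fun y : V n => ((y a : ℝ) : ℂ)) :=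
    Complex.ofRealCLM.contDiff.comp (contDiff_apply ℝ ℝ a)
  exact h.add (smooth_Es a1 hc)

lemma pd_coord (a j : Fin n) (y : V n) :
    pd j (fun y : V n => ((y a : ℝ) : ℂ)) y = if j = a then 1 else 0 := by
  have h : (fun y : V n => ((y a : ℝ) : ℂ)) = (Complex.ofRealCLM.comp
      (ContinuousLinearMap.proj (R := ℝ) (φ := fun _ : Fin n => ℝ) a)) := rfl
  unfold pd
  rw [h, ContinuousLinearMap.fderiv]
  rcases eq_or_ne j a with rfl | hj
  · simp
  · simp [hj, hj.symm]

lemma pd_congr {f g : V n → ℂ} {x : V n} (h : f =ᶠ[nhds x] g) (i : Fin n) :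
    pd i f x = pd i g x := by
  unfold pd; rw [h.fderiv_eq]

lemma pd_const_add (z : ℂ) (f : V n → ℂ) (x : V n) (i : Fin n) :
    pd i (fun y => z + f y) x = pd i f x := by
  unfold pd; rw [fderiv_const_add]

lemma pd_add {f g : V n → ℂ} {x : V n} (hf : DifferentiableAt ℝ f x)
    (hg : DifferentiableAt ℝ g x) (i : Fin n) :
    pd i (fun y => f y + g y) x = pd i f x + pd i g x := by
  unfold pd; rw [fderiv_fun_add hf hg, add_apply]

lemma pd_Wf (a1 : RowA1) {c : Ix n → ℂ} (hc : RD c) (a j : Fin n) (y : V n) :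
    pd j (Wf a c) y = (if j = a then 1 else 0) + pd j (Es 0 c) y := by
  rw [← pd_coord a j y]
  unfold pd Wf
  have h : Differentiable ℝ (fun y : V n => ((y a : ℝ) : ℂ)) :=
    (Complex.ofRealCLM.comp
      (ContinuousLinearMap.proj (R := ℝ) (φ := fun _ : Fin n => ℝ) a)).differentiable
  have h2 := fderiv_fun_add (h y) ((smooth_Es a1 hc).differentiable (by simp) y)
  rw [h2]
  rfl

lemma sum_ent (s : MF n) (i : Fin n) (x : V n) (z : Fin n → ℂ) :
    ∑ j, (s x i j : ℂ) * z j = z i + ∑ j, ent s i j x * z j := by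
  have h : ∀ j, (s x i j : ℂ) = (if i = j then 1 else 0) + ent s i j x := fun j => by
    unfold ent
    rw [Matrix.one_apply]
    split_ifs <;> simp
  simp_rw [h, add_mul, Finset.sum_add_distrib]
  simp

/-- `div (s ∇ (y_a + w)) = 0` on the cube. -/
lemma dv_Wf (a1 : RowA1) {s : MF n} {a : Fin n} {c : Ix n → ℂ} {y : Ix n → Fin n → ℂ}
    (T : Tor s a c y) {x : V n} (hx : x ∈ cube n) : dv s (Wf a c) x = 0 := by
  unfold dv
  have h1 : ∀ i, pd i (fun y => ∑ j, (s y i j : ℂ) * pd j (Wf a c) y) x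
      = Es 0 (dc i (dc i c)) x + Es 0 (dc i fun k => y k i) x := fun i => by
    have h2 : (fun z => ∑ j, (s z i j : ℂ) * pd j (Wf a c) z) =ᶠ[nhds x]
        fun z => (if i = a then 1 else 0) + (Es 0 (dc i c) z + Es 0 (fun k => y k i) z) := by
      filter_upwards [(isOpen_cube n).mem_nhds hx] with z hz
      rw [sum_ent, T.rep z hz i, pd_Wf a1 T.rc, pd_Es a1 T.rc, add_assoc]
      congr 2
      exact Finset.sum_congr rfl fun j _ => by rw [pd_Wf a1 T.rc]
    rw [pd_congr h2, pd_const_add, pd_add ((smooth_Es a1 (rd_dc T.rc i)).differentiable (by simp) x)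
      ((smooth_Es a1 (T.ry i)).differentiable (by simp) x), pd_Es a1 (rd_dc T.rc i),
      pd_Es a1 (T.ry i)]
  simp_rw [h1]
  rw [Finset.sum_add_distrib, ← Es_sum _ fun i => rd_dc (rd_dc T.rc i) i,
    ← Es_sum _ fun i => rd_dc (T.ry i) i,
    ← Es_add (rdSum _ fun i => rd_dc (rd_dc T.rc i) i) (rdSum _ fun i => rd_dc (T.ry i) i)]
  have h6 : (fun k => ∑ i, dc i (dc i c) k + ∑ i, dc i (fun k => y k i) k) = fun _ => 0 := by
    funext k
    have h7 : ∑ i, dc i (dc i c) k
        = -(2 * Real.pi) * (2 * Real.pi * (∑ i, ((k i : ℝ) : ℂ) ^ 2) * c k) := by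
      unfold dc
      rw [Finset.mul_sum, Finset.sum_mul, Finset.mul_sum]
      refine Finset.sum_congr rfl fun i _ => ?_
      linear_combination (4 * (Real.pi : ℂ) ^ 2 * ((k i : ℝ) : ℂ) ^ 2 * c k) * Complex.I_sq
    have h8 : ∑ i, dc i (fun k => y k i) k
        = (2 * Real.pi) * (Complex.I * ∑ i, ((k i : ℝ) : ℂ) * y k i) := by
      unfold dc
      rw [Finset.mul_sum, Finset.mul_sum]
      exact Finset.sum_congr rfl fun i _ => by ring
    rw [h7, h8, T.eq k]
    ring
  rw [h6]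
  simp [Es]

/-! ## Real parts -/

lemma pd_re {W : V n → ℂ} {x : V n} (hW : DifferentiableAt ℝ W x) (j : Fin n) :
    pd j (fun y => (((W y).re : ℝ) : ℂ)) x = (((pd j W x).re : ℝ) : ℂ) := by
  have h : (fun y => (((W y).re : ℝ) : ℂ)) = (Complex.ofRealCLM.comp Complex.reCLM) ∘ W := rfl
  unfold pd
  rw [h, ((Complex.ofRealCLM.comp Complex.reCLM).hasFDerivAt.comp x hW.hasFDerivAt).fderiv]
  rfl

lemma dv_re {s : MF n} (hs : SmM s) {W : V n → ℂ} (hW : ContDiff ℝ ∞ W) (x : V n) :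
    dv s (fun y => (((W y).re : ℝ) : ℂ)) x = (((dv s W x).re : ℝ) : ℂ) := by
  unfold dv
  rw [Complex.re_sum, Complex.ofReal_sum]
  refine Finset.sum_congr rfl fun i _ => ?_
  have h1 : (fun y => ∑ j, (s y i j : ℂ) * pd j (fun y => (((W y).re : ℝ) : ℂ)) y)
      = fun y => (((∑ j, (s y i j : ℂ) * pd j W y).re : ℝ) : ℂ) := by
    funext y
    rw [Complex.re_sum, Complex.ofReal_sum]
    refine Finset.sum_congr rfl fun j _ => ?_
    rw [pd_re (hW.differentiable (by simp) y) j, Complex.re_ofReal_mul, Complex.ofReal_mul]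
  rw [h1, pd_re]
  have h2 : ContDiff ℝ ∞ fun y => ∑ j, (s y i j : ℂ) * pd j W y :=
    ContDiff.sum fun j _ => (Complex.ofRealCLM.contDiff.comp (hs i j)).mul (smooth_pd hW j)
  exact h2.differentiable (by simp) x

lemma dv_congr {s : MF n} {W W' : V n → ℂ} {x : V n} (h : W =ᶠ[nhds x] W') :
    dv s W x = dv s W' x := by
  unfold dv
  refine Finset.sum_congr rfl fun i _ => ?_
  have h1 : (fun y => ∑ j, (s y i j : ℂ) * pd j W y) =ᶠ[nhds x]
      fun y => ∑ j, (s y i j : ℂ) * pd j W' y := by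
    filter_upwards [h.eventuallyEq_nhds] with z hz
    refine Finset.sum_congr rfl fun j _ => ?_
    unfold pd
    rw [hz.fderiv_eq]
  unfold pd at *
  rw [h1.fderiv_eq]

/-! ## Constancy off `Ω` -/

lemma ft_zero_eq (f : V n → ℂ) : cf 0 f 0 = ∫ x, f x := by
  unfold cf ft
  refine integral_congr_ae (Filter.Eventually.of_forall fun x => ?_)
  simp [ex, fr]

lemma int_mul_w (a1 : RowA1) (a2 : RowA2) (a3 : RowA3) {Ω : Set (V n)} (hΩ : IsOpen Ω)
    (hcore : Ω ⊆ core n) {s : MF n} (h1 : ∀ x ∉ Ω, s x = 1)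
    (hst : Star Ω s) {a : Fin n} {c : Ix n → ℂ} {y : Ix n → Fin n → ℂ} (T : Tor s a c y)
    {ψ : V n → ℂ} (hψ : ContDiff ℝ ∞ ψ) (hts : tsupport ψ ⊆ cube n \ closure Ω)
    (hint : ∫ x, ψ x = 0) : ∫ x, ψ x * Es 0 c x = 0 := by
  obtain ⟨C, hC, hA⟩ := a3 n 0
  obtain ⟨hd, hrep, -⟩ := hA ψ hψ (hts.trans sdiff_subset) 0 (fun j => by simp)
  set d := cf 0 ψ with hd'
  have hd0 : d 0 = 0 := by rw [hd', ft_zero_eq, hint]
  -- the periodic solution of the Poisson equation
  set p : Ix n → ℂ := fun k => -(d k) / ((4 * Real.pi ^ 2 * q2 k : ℝ) : ℂ) with hp'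
  have hp : RD p := by
    refine rdMono hd (C := 1) (e := 0) fun k => ?_
    rw [hp']
    simp only [norm_div, norm_neg, Complex.norm_real, pow_zero, mul_one, one_mul]
    rcases eq_or_ne k 0 with rfl | hk
    · rw [hd0]; simp
    have hq : 1 ≤ q2 k := by
      obtain ⟨j, hj⟩ := Function.ne_iff.1 hk
      refine le_trans ?_ (abs_le_q2 k j)
      have := Int.one_le_abs (show k j ≠ 0 from hj)
      calc (1 : ℝ) ≤ ((|k j| : ℤ) : ℝ) := by exact_mod_cast this
        _ = |(k j : ℝ)| := by push_cast; rfl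
    refine div_le_self (norm_nonneg _) ?_
    rw [Real.norm_of_nonneg (by positivity)]
    nlinarith [Real.pi_gt_three]
  have hpe : ∀ k, ∑ i, dc i (dc i p) k = d k := fun k => by
    rcases eq_or_ne k 0 with rfl | hk
    · rw [hd0]; simp [dc]
    have hq : ((q2 k : ℝ) : ℂ) ≠ 0 := by exact_mod_cast q2_ne_zero hk
    have hpi : (Real.pi : ℂ) ≠ 0 := by exact_mod_cast Real.pi_ne_zero
    have h7 : ∑ i, dc i (dc i p) k = -(4 * Real.pi ^ 2) * ((q2 k : ℝ) : ℂ) * p k := by
      unfold dc q2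
      push_cast
      rw [Finset.mul_sum, Finset.sum_mul]
      refine Finset.sum_congr rfl fun i _ => ?_
      linear_combination (4 * (Real.pi : ℂ) ^ 2 * ((k i : ℂ)) ^ 2 * p k) * Complex.I_sq
    rw [h7, hp']
    push_cast
    field_simp
  have hdU : ∀ x ∈ Ω, dv (fun _ => 1) (Es 0 p) x = 0 := fun x hx => by
    have hxc : x ∈ cube n := core_subset_cube n (hcore hx)
    have h2 : dv (fun _ => 1) (Es 0 p) x = ∑ i, Es 0 (dc i (dc i p)) x := by
      unfold dv
      refine Finset.sum_congr rfl fun i _ => ?_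
      have h3 : (fun y => ∑ j, (((1 : Matrix (Fin n) (Fin n) ℝ) i j : ℝ) : ℂ) * pd j (Es 0 p) y)
          = Es 0 (dc i p) := by
        funext y
        rw [← pd_Es a1 hp i]
        rw [Finset.sum_eq_single i]
        · simp
        · intro j _ hj; simp [hj.symm]
        · intro h; exact absurd (Finset.mem_univ i) h
      rw [h3, pd_Es a1 (rd_dc hp i)]
    rw [h2, ← Es_sum _ fun i => rd_dc (rd_dc hp i) i]
    have h4 : (fun k => ∑ i, dc i (dc i p) k) = d := funext hpe
    rw [h4, ← hrep x hxc]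
    exact image_eq_zero_of_notMem_tsupport fun h => (hts h).2 (subset_closure hx)
  have hdW : ∀ x ∈ Ω, dv s (Wf a c) x = 0 := fun x hx =>
    dv_Wf a1 T (core_subset_cube n (hcore hx))
  have h5 := hst (Es 0 p) (Wf a c) (smooth_Es a1 hp) (smooth_Wf a1 T.rc a) hdU hdW
  -- the form on the cube
  have h6 : bl Ω (fun x => s x - 1) (Es 0 p) (Wf a c)
      = ∫ x in cube n, ∑ i, Es 0 (dc i p) x * Es 0 (fun k => y k i) x := by
    unfold bl
    have h7 : ∀ x ∈ cube n, ∑ i, ∑ j, (((s x - 1) i j : ℝ) : ℂ) * pd i (Es 0 p) x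
        * pd j (Wf a c) x = ∑ i, Es 0 (dc i p) x * Es 0 (fun k => y k i) x := fun x hx => by
      refine Finset.sum_congr rfl fun i _ => ?_
      rw [T.rep x hx i, Finset.mul_sum]
      refine Finset.sum_congr rfl fun j _ => ?_
      rw [← pd_Wf a1 T.rc, pd_Es a1 hp]
      have : (((s x - 1) i j : ℝ) : ℂ) = ent s i j x := by
        unfold ent; rw [Matrix.sub_apply]
      rw [this]; ring
    have hsub : Ω ⊆ cube n := hcore.trans (core_subset_cube n)
    rw [setIntegral_congr_fun hΩ.measurableSet fun x hx => h7 x (hsub hx)]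
    refine (setIntegral_eq_of_subset_of_forall_sdiff_eq_zero (isOpen_cube n).measurableSet
      hsub ?_).symm
    intro x hx
    refine Finset.sum_eq_zero fun i _ => ?_
    have h8 : ∀ j, ent s i j x = 0 := fun j => by simp [ent, h1 x hx.2]
    rw [T.rep x hx.1 i]
    simp [h8]
  rw [h6] at h5
  have hfin : IsFiniteMeasure ((volume : Measure (V n)).restrict (cube n)) :=
    ⟨by rw [Measure.restrict_apply_univ, volume_cube]; exact ENNReal.one_lt_top⟩
  have hI : ∀ c d : Ix n → ℂ, RD c → RD d → IntegrableOn (fun x => Es 0 c x * Es 0 d x) (cube n)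
      := fun c d hc hd => by
    refine Integrable.of_bound ((smooth_Es a1 hc).continuous.mul
      (smooth_Es a1 hd).continuous).aestronglyMeasurable (nm 0 c * nm 0 d) ?_
    refine Filter.Eventually.of_forall fun x => ?_
    rw [norm_mul]
    exact mul_le_mul (norm_Es_le hc 0 x) (norm_Es_le hd 0 x) (norm_nonneg _) (nm_nonneg 0 c)
  rw [integral_finsetSum _ fun i _ => hI _ _ (rd_dc hp i) (T.ry i)] at h5
  simp_rw [fun i => int_mul a2 (rd_dc hp i) (T.ry i)] at h5
  have h9 : ∫ x, ψ x * Es 0 c x = ∫ x in cube n, Es 0 d x * Es 0 c x := by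
    have h10 : ∫ x in cube n, Es 0 d x * Es 0 c x = ∫ x in cube n, ψ x * Es 0 c x :=
      setIntegral_congr_fun (isOpen_cube n).measurableSet fun x hx =>
        congrArg (· * Es 0 c x) (hrep x hx).symm
    rw [h10]
    refine (setIntegral_eq_integral_of_forall_compl_eq_zero fun x hx => ?_).symm
    rw [image_eq_zero_of_notMem_tsupport fun h => hx (hts h).1, zero_mul]
  rw [h9, int_mul a2 hd T.rc, ← h5]
  unfold cv
  rw [← Summable.tsum_finsetSum fun i _ => (a2 (0 : V n) 0 _ _ (rd_dc hp i) (T.ry i)).2.1 0]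
  refine tsum_congr fun l => ?_
  rw [zero_sub]
  rcases eq_or_ne l 0 with rfl | hl
  · rw [T.z]; simp [dc]
  have hq : ((q2 l : ℝ) : ℂ) ≠ 0 := by exact_mod_cast q2_ne_zero hl
  have hpi : (Real.pi : ℂ) ≠ 0 := by exact_mod_cast Real.pi_ne_zero
  have h11 : q2 (-l) = q2 l := by simp [q2]
  have h12 : d (-l) = -(4 * Real.pi ^ 2) * ((q2 l : ℝ) : ℂ) * p (-l) := by
    rw [hp']
    simp only [h11]
    push_cast
    field_simp
  have h13 : ∑ i, dc i p (-l) * y l i
      = -(2 * Real.pi) * p (-l) * (Complex.I * ∑ i, ((l i : ℝ) : ℂ) * y l i) := by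
    unfold dc
    rw [Finset.mul_sum, Finset.mul_sum]
    refine Finset.sum_congr rfl fun i _ => ?_
    push_cast [Pi.neg_apply]
    ring
  rw [h12, h13, ← T.eq l]
  have h14 : (∑ i, ((l i : ℝ) : ℂ) ^ 2) = ((q2 l : ℝ) : ℂ) := by unfold q2; push_cast; rfl
  rw [h14]
  ring

end Vale.Agent.P088.LR.G
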