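import Vale.Agent.P088.H198.Defs

/-!
# P088, Fourier series tools
-/

open MeasureTheory Set
open scoped ContDiff Matrix

noncomputable section

namespace Vale.Agent.P088.LR.G

open Vale.Agent.P088.LR

variable {n : ℕ}

lemma wt_one_le (k : Ix n) : 1 ≤ wt k := by
  unfold wt
  have : 0 ≤ ∑ j, |(k j : ℝ)| := Finset.sum_nonneg fun _ _ => abs_nonneg _
  linarith

lemma wt_nonneg (k : Ix n) : 0 ≤ wt k := le_trans zero_le_one (wt_one_le k)

lemma rdMono {c d : Ix n → ℂ} (hd : RD d) {C : ℝ} {e : ℕ}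
    (h : ∀ k, ‖c k‖ ≤ C * wt k ^ e * ‖d k‖) : RD c := fun m => by
  refine Summable.of_nonneg_of_le
    (fun k => mul_nonneg (pow_nonneg (wt_nonneg k) m) (norm_nonneg _)) (fun k => ?_)
    ((hd (m + e)).mul_left C)
  calc wt k ^ m * ‖c k‖ ≤ wt k ^ m * (C * wt k ^ e * ‖d k‖) :=
        mul_le_mul_of_nonneg_left (h k) (pow_nonneg (wt_nonneg k) m)
    _ = C * (wt k ^ (m + e) * ‖d k‖) := by rw [pow_add]; ring

lemma rdSum {ι : Type*} (s : Finset ι) {c : ι → Ix n → ℂ} (h : ∀ i, RD (c i)) :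
    RD fun k => ∑ i ∈ s, c i k := fun m => by
  have h1 : Summable fun k => ∑ i ∈ s, wt k ^ m * ‖c i k‖ := summable_sum fun i _ => h i m
  refine Summable.of_nonneg_of_le
    (fun k => mul_nonneg (pow_nonneg (wt_nonneg k) m) (norm_nonneg _)) (fun k => ?_) h1
  rw [← Finset.mul_sum]
  exact mul_le_mul_of_nonneg_left (norm_sum_le _ _) (pow_nonneg (wt_nonneg k) m)

lemma rdOfSum {ι : Type*} (s : Finset ι) {F : ι → Ix n → ℂ} (h : ∀ i, RD (F i)) {c : Ix n → ℂ}
    {C : ℝ} {e : ℕ} (hc : ∀ k, ‖c k‖ ≤ C * wt k ^ e * ∑ i ∈ s, ‖F i k‖) : RD c := by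
  have h1 : RD fun k => ((∑ i ∈ s, ‖F i k‖ : ℝ) : ℂ) := by
    have h2 : ∀ i, RD fun k => ((‖F i k‖ : ℝ) : ℂ) := fun i m => by simpa using h i m
    have h3 := rdSum s h2
    simpa using h3
  refine rdMono h1 (C := C) (e := e) fun k => ?_
  rw [Complex.norm_real, Real.norm_of_nonneg (Finset.sum_nonneg fun i _ => norm_nonneg _)]
  exact hc k

lemma nm_nonneg (m : ℕ) (c : Ix n → ℂ) : 0 ≤ nm m c :=
  tsum_nonneg fun k => mul_nonneg (pow_nonneg (wt_nonneg k) m) (norm_nonneg _)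

lemma nm_le_of_sum {ι : Type*} (s : Finset ι) {F : ι → Ix n → ℂ} (h : ∀ i, RD (F i))
    {c : Ix n → ℂ} {C : ℝ} {m m' : ℕ}
    (hc : ∀ k, wt k ^ m' * ‖c k‖ ≤ C * ∑ i ∈ s, wt k ^ m * ‖F i k‖) :
    nm m' c ≤ C * ∑ i ∈ s, nm m (F i) := by
  have h1 : Summable fun k => ∑ i ∈ s, wt k ^ m * ‖F i k‖ := summable_sum fun i _ => h i m
  have h2 : Summable fun k => wt k ^ m' * ‖c k‖ := Summable.of_nonneg_of_le
    (fun k => mul_nonneg (pow_nonneg (wt_nonneg k) m') (norm_nonneg _)) hc (h1.mul_left C)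
  calc nm m' c ≤ ∑' k, C * ∑ i ∈ s, wt k ^ m * ‖F i k‖ := h2.tsum_le_tsum hc (h1.mul_left C)
    _ = C * ∑ i ∈ s, nm m (F i) := by
        rw [tsum_mul_left, Summable.tsum_finsetSum fun i _ => h i m]
        rfl

lemma nm_mono (c : Ix n → ℂ) (hc : RD c) {m m' : ℕ} (h : m ≤ m') : nm m c ≤ nm m' c :=
  (hc m).tsum_le_tsum (fun k => mul_le_mul_of_nonneg_right (pow_le_pow_right₀ (wt_one_le k) h)
    (norm_nonneg _)) (hc m')

lemma norm_ex (ξ x : V n) : ‖ex ξ x‖ = 1 := by
  unfold ex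
  have : (2 * Real.pi * Complex.I * ((∑ j, ξ j * x j : ℝ) : ℂ))
      = ((2 * Real.pi * (∑ j, ξ j * x j) : ℝ) : ℂ) * Complex.I := by push_cast; ring
  rw [this, Complex.norm_exp_ofReal_mul_I]

lemma summ {c : Ix n → ℂ} (hc : RD c) (θ x : V n) : Summable fun k => c k * ex (fr θ k) x := by
  refine Summable.of_norm ?_
  simpa [norm_ex] using hc 0

lemma norm_Es_le {c : Ix n → ℂ} (hc : RD c) (θ x : V n) : ‖Es θ c x‖ ≤ nm 0 c := by
  have h1 : Summable fun k => ‖c k * ex (fr θ k) x‖ := by simpa [norm_ex] using hc 0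
  calc ‖Es θ c x‖ ≤ ∑' k, ‖c k * ex (fr θ k) x‖ := norm_tsum_le_tsum_norm h1
    _ = nm 0 c := by simp [norm_ex, nm]

lemma Es_add {c d : Ix n → ℂ} (hc : RD c) (hd : RD d) (θ x : V n) :
    Es θ (fun k => c k + d k) x = Es θ c x + Es θ d x := by
  unfold Es
  rw [← (summ hc θ x).tsum_add (summ hd θ x)]
  exact tsum_congr fun k => by ring

lemma Es_sub {c d : Ix n → ℂ} (hc : RD c) (hd : RD d) (θ x : V n) :
    Es θ (fun k => c k - d k) x = Es θ c x - Es θ d x := by
  unfold Es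
  rw [← (summ hc θ x).tsum_sub (summ hd θ x)]
  exact tsum_congr fun k => by ring

lemma Es_neg (c : Ix n → ℂ) (θ x : V n) : Es θ (fun k => -c k) x = -Es θ c x := by
  unfold Es
  rw [← tsum_neg]
  exact tsum_congr fun k => by ring

lemma Es_sum {ι : Type*} (s : Finset ι) {c : ι → Ix n → ℂ} (h : ∀ i, RD (c i)) (θ x : V n) :
    Es θ (fun k => ∑ i ∈ s, c i k) x = ∑ i ∈ s, Es θ (c i) x := by
  unfold Es
  rw [← Summable.tsum_finsetSum fun i _ => summ (h i) θ x]
  exact tsum_congr fun k => by simp only [Finset.sum_mul]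

/-! ## Orthogonality -/

lemma cube_eq (n : ℕ) : cube n = Set.pi univ fun _ => Ioo (0 : ℝ) 1 := by
  ext x; simp [cube, Set.mem_pi]

lemma isOpen_cube (n : ℕ) : IsOpen (cube n) := by
  rw [cube_eq]; exact isOpen_set_pi finite_univ fun _ _ => isOpen_Ioo

lemma isClosed_core (n : ℕ) : IsClosed (core n) := by
  have : core n = Set.pi univ fun _ => Icc (1 / 4 : ℝ) (3 / 4) := by
    ext x; simp only [core, Set.mem_ofPred_eq, Set.mem_pi, Set.mem_univ, true_implies, Set.mem_Icc]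
  rw [this]; exact isClosed_set_pi fun _ _ => isClosed_Icc

lemma isCompact_core (n : ℕ) : IsCompact (core n) := by
  have : core n = Set.pi univ fun _ => Icc (1 / 4 : ℝ) (3 / 4) := by
    ext x; simp only [core, Set.mem_ofPred_eq, Set.mem_pi, Set.mem_univ, true_implies, Set.mem_Icc]
  rw [this]; exact isCompact_univ_pi fun _ => isCompact_Icc

lemma core_subset_cube (n : ℕ) : core n ⊆ cube n := fun x hx j =>
  ⟨by have := (hx j).1; linarith, by have := (hx j).2; linarith⟩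

lemma volume_cube (n : ℕ) : volume (cube n) = 1 := by
  rw [cube_eq, volume_pi_pi]; simp

lemma int_one (k : ℤ) : ∫ t in Ioo (0 : ℝ) 1, Complex.exp (2 * Real.pi * Complex.I * (k * t : ℝ))
    = if k = 0 then 1 else 0 := by
  rw [← integral_Ioc_eq_integral_Ioo, ← intervalIntegral.integral_of_le zero_le_one]
  split_ifs with h
  · subst h; simp
  · have h1 : (2 * Real.pi * Complex.I * k : ℂ) ≠ 0 := by
      have : (k : ℂ) ≠ 0 := by exact_mod_cast h
      exact mul_ne_zero Complex.two_pi_I_ne_zero this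
    have h2 := integral_exp_mul_complex (a := 0) (b := 1) h1
    have h3 : ∀ t : ℝ, Complex.exp (2 * Real.pi * Complex.I * (k * t : ℝ))
        = Complex.exp (2 * Real.pi * Complex.I * k * t) := fun t => by
      congr 1; push_cast; ring
    simp_rw [h3]
    rw [h2]
    have h4 : Complex.exp (2 * Real.pi * Complex.I * k * ((1 : ℝ) : ℂ)) = 1 := by
      rw [← Complex.exp_int_mul_two_pi_mul_I k]; congr 1; push_cast; ring
    rw [h4]; simp

lemma int_ex (k : Ix n) : ∫ x in cube n, ex (fr 0 k) x = if k = 0 then 1 else 0 := by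
  have h1 : ∀ x : V n, ex (fr 0 k) x
      = ∏ j, Complex.exp (2 * Real.pi * Complex.I * (k j * x j : ℝ)) := fun x => by
    rw [← Complex.exp_sum]
    unfold ex fr
    congr 1
    rw [← Finset.mul_sum]
    push_cast
    simp
  rw [cube_eq]
  have h2 : (volume : Measure (V n)).restrict (Set.pi univ fun _ => Ioo (0 : ℝ) 1)
      = Measure.pi fun _ => (volume : Measure ℝ).restrict (Ioo 0 1) := by
    rw [volume_pi, Measure.restrict_pi_pi]
  simp_rw [h1]
  rw [h2, integral_fintype_prod_eq_prod (𝕜 := ℂ)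
    (fun j (t : ℝ) => Complex.exp (2 * Real.pi * Complex.I * (k j * t : ℝ)))]
  simp_rw [int_one]
  split_ifs with h
  · subst h; simp
  · obtain ⟨j, hj⟩ := Function.ne_iff.1 h
    exact Finset.prod_eq_zero (Finset.mem_univ j) (by simpa using hj)

lemma continuous_ex (ξ : V n) : Continuous (ex ξ) := by
  unfold ex; fun_prop

lemma int_Es {c : Ix n → ℂ} (hc : RD c) : ∫ x in cube n, Es 0 c x = c 0 := by
  have hfin : IsFiniteMeasure ((volume : Measure (V n)).restrict (cube n)) :=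
    ⟨by rw [Measure.restrict_apply_univ, volume_cube]; exact ENNReal.one_lt_top⟩
  have h1 : ∀ k : Ix n, Integrable (fun x => c k * ex (fr 0 k) x)
      ((volume : Measure (V n)).restrict (cube n)) := fun k => by
    refine Integrable.const_mul ?_ _
    refine Integrable.of_bound (continuous_ex _).aestronglyMeasurable 1 ?_
    exact Filter.Eventually.of_forall fun x => by rw [norm_ex]
  have h2 : ∀ k : Ix n, ∫ x in cube n, ‖c k * ex (fr 0 k) x‖ = ‖c k‖ := fun k => by
    simp [norm_ex, Measure.real, volume_cube]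
  have h3 := integral_tsum_of_summable_integral_norm h1 (by simp_rw [h2]; simpa using hc 0)
  unfold Es
  rw [← h3]
  simp_rw [integral_const_mul, int_ex]
  rw [tsum_eq_single 0]
  · simp
  · intro k hk; simp [hk]

/-- `∫_cube (∑ c_k e_k) (∑ d_k e_k) = ∑ c_{-k} d_k`. -/
lemma int_mul (a2 : RowA2) {c d : Ix n → ℂ} (hc : RD c) (hd : RD d) :
    ∫ x in cube n, Es 0 c x * Es 0 d x = cv c d 0 := by
  have h := a2 (0 : V n) 0 c d hc hd
  simp_rw [h.2.2.1, add_zero]
  exact int_Es h.1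

end Vale.Agent.P088.LR.G
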