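import Vale.Agent.P088.H53.E
import Vale.Agent.P088.H27.Const

/-!
# P088, row GAUGE: harmonic coordinates
-/

open MeasureTheory Set
open scoped ContDiff Matrix

noncomputable section

namespace Vale.Agent.P088.LR.G

open Vale.Agent.P088.LR

variable {n : ℕ}

/-- The Fourier coefficients of a function supported in the cube and given there by a series. -/
lemma cf_eq (a2 : RowA2) {f : V n → ℂ} {y : Ix n → ℂ} (hy : RD y) (h0 : ∀ x ∉ cube n, f x = 0)
    (h : ∀ x ∈ cube n, f x = Es 0 y x) (k : Ix n) : cf 0 f k = y k := by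
  classical
  set d : Ix n → ℂ := fun l => if l = -k then 1 else 0 with hd'
  have hd : RD d := fun m => by
    refine summable_of_ne_finset_zero (s := {-k}) fun l hl => ?_
    rw [Finset.mem_singleton] at hl
    simp [hd', hl]
  have hE : ∀ x, Es 0 d x = ex (-(fr 0 k)) x := fun x => by
    unfold Es
    rw [tsum_eq_single (-k)]
    · have : fr 0 (-k) = -(fr (0 : V n) k) := by funext j; simp [fr]
      simp [hd', this]
    · intro l hl; simp [hd', hl]
  have h1 := int_mul a2 hy hd
  have h2 : cv y d 0 = y k := by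
    unfold cv
    rw [tsum_eq_single (-k)]
    · simp [hd']
    · intro l hl; simp [hd', hl]
  rw [← h2, ← h1]
  unfold cf ft
  rw [← setIntegral_eq_integral_of_forall_compl_eq_zero (s := cube n) fun x hx => by
    rw [h0 x hx, zero_mul]]
  exact setIntegral_congr_fun (isOpen_cube n).measurableSet fun x hx => by
    simp only [hE, h x hx]

/-- The potential is constant off `Ω`. -/
lemma const_tor (a1 : RowA1) (a2 : RowA2) (a3 : RowA3) {Ω : Set (V n)} (hΩ : IsOpen Ω)
    (hreg : interior (closure Ω) = Ω) (hcore : Ω ⊆ core n) {s : MF n} (hs : SmM s)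
    (h1 : ∀ x ∉ Ω, s x = 1) (hst : Star Ω s) {a : Fin n} {c : Ix n → ℂ}
    {y : Ix n → Fin n → ℂ} (T : Tor s a c y) :
    ∃ c0 : ℂ, ∀ x ∈ cube n, x ∉ Ω → Es 0 c x = c0 := by
  have hent : ∀ i j, ∀ x ∉ Ω, ent s i j x = 0 := fun i j x hx => by simp [ent, h1 x hx]
  have hsub : Ω ⊆ cube n := hcore.trans (core_subset_cube n)
  set F : Fin n → V n → ℂ := fun i x =>
    ∑ j, ent s i j x * ((if j = a then 1 else 0) + pd j (Es 0 c) x) with hF'
  have hF : ∀ i, ContDiff ℝ ∞ (F i) := fun i => ContDiff.sum fun j _ =>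
    (smooth_ent hs i j).mul (contDiff_const.add (smooth_pd (smooth_Es a1 T.rc) j))
  have hF0 : ∀ i, ∀ x ∉ Ω, F i x = 0 := fun i x hx =>
    Finset.sum_eq_zero fun j _ => by rw [hent i j x hx, zero_mul]
  have hcf : ∀ i k, cf 0 (F i) k = y k i := fun i k =>
    cf_eq a2 (T.ry i) (fun x hx => hF0 i x fun h => hx (hsub h)) (fun x hx => (T.rep x hx i).symm) k
  refine Vale.Agent.P088.LR.H27.const_off a1 a3 Ω hreg hcore F hF hF0 ?_ c T.rc ?_
  · intro U hU hdU
    have h5 := hst U (Wf a c) hU (smooth_Wf a1 T.rc a) hdU fun x hx => dv_Wf a1 T (hsub hx)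
    rw [← h5]
    unfold bl
    refine setIntegral_congr_fun hΩ.measurableSet fun x _ => ?_
    refine Finset.sum_congr rfl fun i _ => ?_
    simp only [hF']
    rw [Finset.sum_mul]
    refine Finset.sum_congr rfl fun j _ => ?_
    rw [← pd_Wf a1 T.rc]
    have : (((s x - 1) i j : ℝ) : ℂ) = ent s i j x := by
      unfold ent; rw [Matrix.sub_apply]
    rw [this]; ring
  · intro k
    have h6 := T.eq k
    simp only [hcf]
    push_cast at h6
    linear_combination h6

/-- The displacement. -/
def disp (c : Fin n → Ix n → ℂ) (c0 : Fin n → ℂ) (x : V n) : V n :=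
  open Classical in if x ∈ cube n then fun a => (Es 0 (c a) x - c0 a).re else 0

theorem gauge (a1 : RowA1) (a2 : RowA2) (a3 : RowA3) (neu : RowNEU) :
    ∀ (n M : ℕ), ∃ C ε₀ : ℝ, 0 < C ∧ 0 < ε₀ ∧ ∀ (Ω : Set (V n)), IsOpen Ω →
      interior (closure Ω) = Ω → Ω ⊆ core n → ∀ s : MF n, SmM s → (∀ x, (s x).IsSymm) →
      (∀ x ∉ Ω, s x = 1) → Star Ω s → ∀ δ ≤ ε₀, 0 ≤ δ →
      (∀ i j, nm M (cf 0 (ent s i j)) ≤ δ) →
      ∃ w : V n → V n, ContDiff ℝ ∞ w ∧ (∀ x ∉ Ω, w x = 0) ∧ Cl (M + 1) (C * δ) w ∧
        ∀ a x, dv s (fun y => ((y a + w y a : ℝ) : ℂ)) x = 0 := by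
  intro n M
  have hpi : (1 : ℝ) ≤ 2 * Real.pi := by linarith [Real.pi_gt_three]
  refine ⟨2 * ((2 * Real.pi) ^ (M + 1) * ((n + 1) * (2 * (n + 1)))), 1 / (2 * (n ^ 2 + 1)),
    by positivity, by positivity, ?_⟩
  intro Ω hΩ hreg hcore s hs hsym h1 hst δ hδ hδ0 hM
  have hδ' : (n : ℝ) ^ 2 * δ ≤ 1 / 2 := by
    have h2 : (n : ℝ) ^ 2 * δ ≤ n ^ 2 * (1 / (2 * (n ^ 2 + 1))) :=
      mul_le_mul_of_nonneg_left hδ (by positivity)
    refine h2.trans ?_
    rw [mul_one_div, div_le_div_iff₀ (by positivity) (by norm_num)]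
    nlinarith [sq_nonneg (n : ℝ)]
  choose c y T hb using fun a => tor a1 a2 a3 neu M hcore hs h1 hδ' hM a
  choose c0 hc0 using fun a => const_tor a1 a2 a3 hΩ hreg hcore hs h1 hst (T a)
  have hsub : Ω ⊆ cube n := hcore.trans (core_subset_cube n)
  -- the value off `Ω`
  have hz : ∀ x ∉ Ω, disp c c0 x = 0 := fun x hx => by
    unfold disp
    split_ifs with h
    · funext a
      rw [hc0 a x h hx, sub_self]
      simp
    · rfl
  have hin : ∀ x ∈ cube n, disp c c0 =ᶠ[nhds x] fun y a => (Es 0 (c a) y - c0 a).re :=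
    fun x hx => by
      filter_upwards [(isOpen_cube n).mem_nhds hx] with y hy
      simp [disp, hy]
  have hout : ∀ x ∉ cube n, disp c c0 =ᶠ[nhds x] fun _ => 0 := fun x hx => by
    filter_upwards [(isClosed_core n).isOpen_compl.mem_nhds
      fun h => hx (core_subset_cube n h)] with y hy
    exact hz y fun h => hy (hcore h)
  have hsm : ∀ a, ContDiff ℝ ∞ fun y => Es 0 (c a) y - c0 a := fun a =>
    (smooth_Es a1 (T a).rc).sub contDiff_const
  have hre : ∀ a, ContDiff ℝ ∞ fun y => (Es 0 (c a) y - c0 a).re := fun a =>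
    Complex.reCLM.contDiff.comp (hsm a)
  have hw : ContDiff ℝ ∞ (disp c c0) := contDiff_iff_contDiffAt.2 fun x => by
    by_cases hx : x ∈ cube n
    · exact ((contDiff_pi.2 hre).contDiffAt).congr_of_eventuallyEq (hin x hx)
    · exact contDiffAt_const.congr_of_eventuallyEq (hout x hx)
  refine ⟨disp c c0, hw, hz, ?_, ?_⟩
  · -- bounds
    intro l hl x
    by_cases hx : x ∈ cube n
    · rw [(Filter.EventuallyEq.iteratedFDeriv ℝ (hin x hx) l).eq_of_nhds]
      refine norm_iter_pi (by positivity)
        ((contDiff_pi.2 hre).of_le (by exact_mod_cast le_top)).contDiffAt fun a => ?_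
      have hnn : 0 ≤ nm (M + 1) (c a) := nm_nonneg _ _
      have hB : ‖iteratedFDeriv ℝ l (fun y => (Es 0 (c a) y - c0 a).re) x‖
          ≤ 2 * ((2 * Real.pi) ^ (M + 1) * nm (M + 1) (c a)) := by
        have h3 := ContinuousLinearMap.norm_iteratedFDeriv_comp_left Complex.reCLM
          (f := fun y => Es 0 (c a) y - c0 a) (x := x) (N := (l : ℕ∞ω)) (n := l)
          ((hsm a).of_le (by exact_mod_cast le_top)).contDiffAt le_rfl
        rw [Complex.reCLM_norm, one_mul] at h3
        refine h3.trans ?_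
        rcases Nat.eq_zero_or_pos l with rfl | hl0
        · rw [norm_iteratedFDeriv_zero]
          have h4 : ‖Es 0 (c a) x - c0 a‖ ≤ 2 * nm 0 (c a) := by
            obtain hn | hn := Nat.eq_zero_or_pos n
            · subst hn; exact a.elim0
            have hp : (fun _ => 1 / 8 : V n) ∈ cube n := fun j => ⟨by norm_num, by norm_num⟩
            have hp' : (fun _ => 1 / 8 : V n) ∉ Ω := fun h => by
              have := (hcore h ⟨0, hn⟩).1
              norm_num at this
            rw [← hc0 a _ hp hp']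
            refine (norm_sub_le _ _).trans ?_
            linarith [norm_Es_le (T a).rc 0 x, norm_Es_le (T a).rc 0 (fun _ => 1 / 8 : V n)]
          refine h4.trans (mul_le_mul_of_nonneg_left ?_ (by norm_num))
          refine (nm_mono _ (T a).rc (Nat.zero_le (M + 1))).trans ?_
          exact le_mul_of_one_le_left hnn (one_le_pow₀ hpi)
        · have h5 : iteratedFDeriv ℝ l (fun y => Es 0 (c a) y - c0 a) x
              = iteratedFDeriv ℝ l (Es 0 (c a)) x := by
            have h6 := fun_iteratedFDeriv_sub_apply (x := x)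
              ((smooth_Es a1 (T a).rc).of_le (n := ∞) (m := (l : ℕ∞ω))
                (by exact_mod_cast le_top)).contDiffAt
              (contDiffAt_const (c := c0 a))
            rw [h6, iteratedFDeriv_const_of_ne hl0.ne']
            simp
          rw [h5]
          refine (norm_iter_Es a1 l (T a).rc x).trans ?_
          have h7 : (2 * Real.pi) ^ l * nm l (c a) ≤ (2 * Real.pi) ^ (M + 1) * nm (M + 1) (c a) :=
            mul_le_mul (pow_le_pow_right₀ hpi hl) (nm_mono _ (T a).rc hl) (nm_nonneg _ _)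
              (by positivity)
          have h8 : 0 ≤ (2 * Real.pi) ^ (M + 1) * nm (M + 1) (c a) := by positivity
          linarith
      refine hB.trans ?_
      have h9 : nm (M + 1) (c a) ≤ (n + 1) * (2 * (n + 1)) * δ := (hb a).trans (by
        have : (n : ℝ) * δ ≤ (n + 1) * δ := by nlinarith
        have h10 : ((n : ℝ) + 1) * (2 * (n * δ)) ≤ (n + 1) * (2 * ((n + 1) * δ)) :=
          mul_le_mul_of_nonneg_left (by linarith) (by positivity)
        linarith)
      calc 2 * ((2 * Real.pi) ^ (M + 1) * nm (M + 1) (c a))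
          ≤ 2 * ((2 * Real.pi) ^ (M + 1) * ((n + 1) * (2 * (n + 1)) * δ)) := by gcongr
        _ = _ := by ring
    · rw [(Filter.EventuallyEq.iteratedFDeriv ℝ (hout x hx) l).eq_of_nhds]
      have : iteratedFDeriv ℝ l (fun _ : V n => (0 : V n)) x = 0 := by
        have h := iteratedFDeriv_fun_zero (𝕜 := ℝ) (E := V n) (F := V n) (n := l)
        exact congrFun h x
      rw [this, norm_zero]
      positivity
  · -- the equation
    intro a x
    by_cases hx : x ∈ cube n
    · have h11 : (fun y => ((y a + disp c c0 y a : ℝ) : ℂ)) =ᶠ[nhds x]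
          fun y => (((Wf a (c a) y - c0 a).re : ℝ) : ℂ) := by
        filter_upwards [hin x hx] with y hy
        rw [hy]
        simp [Wf, add_sub_assoc]
      rw [dv_congr h11, dv_re hs ((smooth_Wf a1 (T a).rc a).sub contDiff_const)]
      have h12 : dv s (fun y => Wf a (c a) y - c0 a) x = dv s (Wf a (c a)) x := by
        unfold dv
        refine Finset.sum_congr rfl fun i _ => ?_
        congr 1
        funext y
        refine Finset.sum_congr rfl fun j _ => ?_
        congr 1
        unfold pd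
        rw [fderiv_sub_const]
      rw [h12, dv_Wf a1 (T a) hx]
      simp
    · have h11 : (fun y => ((y a + disp c c0 y a : ℝ) : ℂ)) =ᶠ[nhds x]
          fun y => ((y a : ℝ) : ℂ) := by
        filter_upwards [hout x hx] with y hy
        rw [hy]
        simp
      rw [dv_congr h11]
      unfold dv
      refine Finset.sum_eq_zero fun i _ => ?_
      have h13 : (fun y => ∑ j, (s y i j : ℂ) * pd j (fun y : V n => ((y a : ℝ) : ℂ)) y)
          =ᶠ[nhds x] fun _ => (((1 : Matrix (Fin n) (Fin n) ℝ) i a : ℝ) : ℂ) := by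
        filter_upwards [(isClosed_core n).isOpen_compl.mem_nhds
          fun h => hx (core_subset_cube n h)] with y hy
        rw [h1 y fun h => hy (hcore h)]
        simp [pd_coord]
      rw [pd_congr h13]
      simp [pd]

end Vale.Agent.P088.LR.G
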