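import Vale.Agent.P088.H599.J.Defs
import Vale.Agent.P088.H924.Frame

/-!
# P088, theorem J, row CORE: the gauge identity and the reduced data
-/

open MeasureTheory Set Filter Topology
open scoped ContDiff Matrix

noncomputable section

namespace Vale.Agent.P088.LR.U.H53

open CF H158

variable {n N : ℕ}

theorem smC_sub {F G : MC n N} (hF : SmC F) (hG : SmC G) : SmC (fun x => F x - G x) := by
  intro a b
  simp only [Matrix.sub_apply]
  exact (hF a b).sub (hG a b)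

theorem smC_const (C : Matrix (Fin N) (Fin N) ℂ) : SmC (fun _ : V n => C) :=
  fun _ _ => contDiff_const

theorem pdm_sub {P Q : MC n N} (hP : SmC P) (hQ : SmC Q) (i : Fin n) (x : V n) :
    pdm i (fun y => P y - Q y) x = pdm i P x - pdm i Q x := by
  ext a b
  simp only [pdm, Matrix.of_apply, Matrix.sub_apply]
  exact pd_sub (dfa (hP a b) x) (dfa (hQ a b) x) i

theorem pdm_add {P Q : MC n N} (hP : SmC P) (hQ : SmC Q) (i : Fin n) (x : V n) :
    pdm i (fun y => P y + Q y) x = pdm i P x + pdm i Q x := by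
  ext a b
  simp only [pdm, Matrix.of_apply, Matrix.add_apply]
  exact pd_add (dfa (hP a b) x) (dfa (hQ a b) x) i

/-- A smooth matrix function which vanishes off `Ω` has zero derivatives off `Ω`. -/
theorem pdm_off {Ω : Set (V n)} (hi : interior (closure Ω) = Ω) {P : MC n N} (hP : SmC P)
    (h0 : ∀ x ∉ Ω, P x = 0) {x : V n} (hx : x ∉ Ω) (i : Fin n) : pdm i P x = 0 := by
  ext a b
  simp only [pdm, Matrix.of_apply, Matrix.zero_apply]
  have hcl : IsClosed {x : V n | pd i (fun y => P y a b) x = 0} :=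
    isClosed_eq (H158.contDiff_pd (hP a b) i).continuous continuous_const
  have h1 : (closure Ω)ᶜ ⊆ {x : V n | pd i (fun y => P y a b) x = 0} := by
    intro y hy
    have h2 : (fun y => P y a b) =ᶠ[nhds y] fun _ => 0 := by
      filter_upwards [isClosed_closure.isOpen_compl.mem_nhds hy] with v hv
      rw [h0 v fun h => hv (subset_closure h), Matrix.zero_apply]
    show pd i (fun y => P y a b) y = 0
    unfold pd
    rw [h2.fderiv_eq]
    simp
  have h2 : x ∈ closure ((closure Ω)ᶜ) := by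
    rw [closure_compl, hi]
    exact hx
  exact hcl.closure_subset_iff.2 h1 h2

theorem pdm_eq_off {Ω : Set (V n)} (hi : interior (closure Ω) = Ω) {P Q : MC n N} (hP : SmC P)
    (hQ : SmC Q) (h0 : ∀ x ∉ Ω, P x = Q x) {x : V n} (hx : x ∉ Ω) (i : Fin n) :
    pdm i P x = pdm i Q x := by
  have h := pdm_off hi (smC_sub hP hQ) (fun y hy => sub_eq_zero.2 (h0 y hy)) hx i
  rw [pdm_sub hP hQ] at h
  exact sub_eq_zero.1 h

/-- The flux coefficients agree off `Ω`. -/
theorem qF_off {Ω : Set (V n)} (hi : interior (closure Ω) = Ω) {s s' : MF n}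
    (hs : ∀ x ∉ Ω, s x = s' x) {A A' : Cn n N} (hA : ∀ i, ∀ x ∉ Ω, A i x = A' i x)
    {F F' : MC n N} (hF : SmC F) (hF' : SmC F') (hFo : ∀ x ∉ Ω, F x = F' x) (i : Fin n) {x : V n}
    (hx : x ∉ Ω) : qF s A F i x = qF s' A' F' i x := by
  unfold qF KF cdC
  refine Finset.sum_congr rfl fun j _ => ?_
  rw [hs x hx, hA j x hx, hFo x hx, pdm_eq_off hi hF hF' hFo hx j]

theorem TF_off {Ω : Set (V n)} {s s' : MF n} (hs : ∀ x ∉ Ω, s x = s' x) {F F' : MC n N}
    (hFo : ∀ x ∉ Ω, F x = F' x) (i j : Fin n) {x : V n} (hx : x ∉ Ω) :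
    TF s F i j x = TF s' F' i j x := by
  unfold TF PF
  rw [hs x hx, hFo x hx]

theorem TF_sc (σ : V n → ℝ) (F : MC n N) (i j : Fin n) (x : V n) :
    TF (sc σ) F i j x = dg (fun z => (σ z : ℂ) • PF F z) i j x := by
  unfold TF dg sc
  by_cases h : i = j
  · subst h; simp
  · simp [h]

theorem smC_PF {F : MC n N} (hF : SmC F) : SmC (PF F) := SmC_mul (SmC_star hF) hF

theorem smC_rsmul {c : V n → ℝ} (hc : ContDiff ℝ ∞ c) {F : MC n N} (hF : SmC F) :
    SmC (fun x => ((c x : ℝ) : ℂ) • F x) :=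
  H924.smC_smul (Complex.ofRealCLM.contDiff.comp hc) hF

theorem smC_TF {s : MF n} (hs : SmM s) {F : MC n N} (hF : SmC F) (i j : Fin n) :
    SmC (TF s F i j) := smC_rsmul (hs i j) (smC_PF hF)

theorem smC_cdC {A : Cn n N} (hA : SmU A) {F : MC n N} (hF : SmC F) (j : Fin n) :
    SmC (cdC A j F) := H924.smC_cdF hA hF j

theorem smC_KF {A : Cn n N} (hA : SmU A) {F : MC n N} (hF : SmC F) (j : Fin n) :
    SmC (KF A F j) :=
  smC_sub (SmC_mul (SmC_star hF) (smC_cdC hA hF j)) (SmC_mul (SmC_star (smC_cdC hA hF j)) hF)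

theorem smC_qF {s : MF n} (hs : SmM s) {A : Cn n N} (hA : SmU A) {F : MC n N} (hF : SmC F)
    (i : Fin n) : SmC (qF s A F i) :=
  H924.smC_sum _ fun j => smC_rsmul (hs i j) (smC_KF hA hF j)

theorem smC_dg {τ : MC n N} (hτ : SmC τ) (i j : Fin n) : SmC (dg τ i j) := by
  unfold dg
  by_cases h : i = j
  · simpa [h] using hτ
  · simpa [h] using smC_const 0

theorem smC_ite {n' : ℕ} (a j : Fin n') : SmC (fun _ : V n => if j = a then (1 : Matrix (Fin N) (Fin N) ℂ) else 0) :=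
  smC_const _

/-- `K_j` is antihermitian. -/
theorem qF_anti (s : MF n) (A : Cn n N) (F : MC n N) (i : Fin n) (x : V n) :
    (qF s A F i x)ᴴ = -qF s A F i x := by
  unfold qF KF
  rw [Matrix.conjTranspose_sum, ← Finset.sum_neg_distrib]
  refine Finset.sum_congr rfl fun j _ => ?_
  rw [Matrix.conjTranspose_smul, Matrix.conjTranspose_sub, Matrix.conjTranspose_mul,
    Matrix.conjTranspose_mul, Matrix.conjTranspose_conjTranspose,
    Matrix.conjTranspose_conjTranspose, ← smul_neg, neg_sub]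
  simp

theorem PF_herm (F : MC n N) (x : V n) : (PF F x)ᴴ = PF F x := by
  unfold PF
  rw [Matrix.conjTranspose_mul, Matrix.conjTranspose_conjTranspose]

/-- **The gauge identity** of `RowABSU`. -/
theorem gid (hGAU : RowGAU) {Ω : Set (V n)} (hΩ : IsOpen Ω) (hreg : interior (closure Ω) = Ω)
    {σ : V n → ℝ} {s : MF n} (hσ : ContDiff ℝ ∞ σ) (hs : SmM s) (hsym : ∀ x, (s x).IsSymm)
    (hoff : ∀ x ∉ Ω, s x = sc σ x) {A₁ A : Cn n N} (hA₁ : SmU A₁) (hA : SmU A)
    (hAo : ∀ i, ∀ x ∉ Ω, A i x = A₁ i x) {F₁ F : MC n N} {X₁ X : Fin n → MC n N}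
    (hF₁ : SmC F₁) (hF : SmC F) (hF₁i : SmC fun x => (F₁ x)⁻¹) (hFi : SmC fun x => (F x)⁻¹)
    (hu₁ : ∀ x, IsUnit (F₁ x).det) (hu : ∀ x, IsUnit (F x).det)
    (hX₁ : ∀ a, SmC (X₁ a)) (hX : ∀ a, SmC (X a)) (hFo : ∀ x ∉ Ω, F x = F₁ x)
    (hXo : ∀ a, ∀ x ∉ Ω, X a x = X₁ a x) (h1 : ∀ x ∈ Ω, LaC (sc σ) A₁ F₁ x = 0)
    (h2 : ∀ x ∈ Ω, LaC s A F x = 0) (h3 : ∀ a, ∀ x ∈ Ω, LaC (sc σ) A₁ (X₁ a) x = 0)
    (h4 : ∀ a, ∀ x ∈ Ω, LaC s A (X a) x = 0) {G : Fin n → Fin n → MC n N}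
    (hG : ∀ a i, SmC (G a i))
    (hGΩ : ∀ a i, ∀ x ∈ Ω, (if i = a then 1 else 0) + G a i x =
      pdm i (fun y => (F y)⁻¹ * X a y) x) (a : Fin n) (x : V n) :
    ∑ i, pdm i (fun y => (∑ j, (TF s F i j y - dg (fun z => (σ z : ℂ) • PF F₁ z) i j y) *
          ((if j = a then 1 else 0) + G a j y)) +
        ((σ y : ℂ) • PF F₁ y) * pdm i (fun z => (F z)⁻¹ * X a z - (F₁ z)⁻¹ * X₁ a z) y) x +
      ∑ i, (qF s A F i x - qF (sc σ) A₁ F₁ i x) * ((if i = a then 1 else 0) + G a i x) +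
      ∑ i, qF (sc σ) A₁ F₁ i x * pdm i (fun z => (F z)⁻¹ * X a z - (F₁ z)⁻¹ * X₁ a z) x = 0 := by
  have hscs : SmM (sc σ) := by
    intro i j
    have e : (fun x => sc σ x i j) = fun x => σ x * (1 : Matrix (Fin n) (Fin n) ℝ) i j := by
      funext x; simp [sc]
    rw [e]
    exact hσ.mul contDiff_const
  have hscy : ∀ x, (sc σ x).IsSymm := fun x => by
    unfold sc
    rw [Matrix.IsSymm, Matrix.transpose_smul, Matrix.transpose_one]
  have hτ : SmC (fun z => (σ z : ℂ) • PF F₁ z) := smC_rsmul hσ (smC_PF hF₁)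
  have hY2 : SmC (fun z => (F z)⁻¹ * X a z) := SmC_mul hFi (hX a)
  have hY1 : SmC (fun z => (F₁ z)⁻¹ * X₁ a z) := SmC_mul hF₁i (hX₁ a)
  have hD : SmC (fun z => (F z)⁻¹ * X a z - (F₁ z)⁻¹ * X₁ a z) := smC_sub hY2 hY1
  have hin : ∀ i, SmC (fun y => (∑ j, (TF s F i j y - dg (fun z => (σ z : ℂ) • PF F₁ z) i j y) *
          ((if j = a then 1 else 0) + G a j y)) +
        ((σ y : ℂ) • PF F₁ y) * pdm i (fun z => (F z)⁻¹ * X a z - (F₁ z)⁻¹ * X₁ a z) y) := by
    intro i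
    refine H924.smC_add (H924.smC_sum _ fun j => SmC_mul (smC_sub (smC_TF hs hF i j) (smC_dg hτ i j))
      (H924.smC_add (smC_const _) (hG a j))) (SmC_mul hτ (H924.smC_pdm hD i))
  by_cases hx : x ∈ Ω
  · have m2 := hGAU Ω hΩ s hs hsym A hA F (fun z => (F z)⁻¹ * X a z) hF hY2 h2 (by
      have e : (fun y => F y * ((F y)⁻¹ * X a y)) = X a := by
        funext y
        rw [← Matrix.mul_assoc, Matrix.mul_nonsing_inv _ (hu y), Matrix.one_mul]
      intro y hy
      have := h4 a y hy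
      rw [← e] at this
      exact this) x hx
    have m1 := hGAU Ω hΩ (sc σ) hscs hscy A₁ hA₁ F₁ (fun z => (F₁ z)⁻¹ * X₁ a z) hF₁ hY1 h1 (by
      have e : (fun y => F₁ y * ((F₁ y)⁻¹ * X₁ a y)) = X₁ a := by
        funext y
        rw [← Matrix.mul_assoc, Matrix.mul_nonsing_inv _ (hu₁ y), Matrix.one_mul]
      intro y hy
      have := h3 a y hy
      rw [← e] at this
      exact this) x hx
    unfold MoC at m1 m2
    have e1 : ∀ i, pdm i (fun y => (∑ j, (TF s F i j y -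
          dg (fun z => (σ z : ℂ) • PF F₁ z) i j y) * ((if j = a then 1 else 0) + G a j y)) +
        ((σ y : ℂ) • PF F₁ y) * pdm i (fun z => (F z)⁻¹ * X a z - (F₁ z)⁻¹ * X₁ a z) y) x =
        pdm i (fun y => ∑ j, TF s F i j y * pdm j (fun z => (F z)⁻¹ * X a z) y) x -
        pdm i (fun y => ∑ j, TF (sc σ) F₁ i j y * pdm j (fun z => (F₁ z)⁻¹ * X₁ a z) y) x := by
      intro i
      rw [← pdm_sub (H924.smC_sum _ fun j => SmC_mul (smC_TF hs hF i j) (H924.smC_pdm hY2 j))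
        (H924.smC_sum _ fun j => SmC_mul (smC_TF hscs hF₁ i j) (H924.smC_pdm hY1 j))]
      refine pdm_congr hΩ (fun y hy => ?_) hx i
      have e2 : ∀ j, (TF s F i j y - dg (fun z => (σ z : ℂ) • PF F₁ z) i j y) *
          ((if j = a then 1 else 0) + G a j y) =
          TF s F i j y * pdm j (fun z => (F z)⁻¹ * X a z) y -
          dg (fun z => (σ z : ℂ) • PF F₁ z) i j y * pdm j (fun z => (F z)⁻¹ * X a z) y := by
        intro j
        rw [hGΩ a j y hy, sub_mul]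
      have e3 : ∀ Z : Fin n → Matrix (Fin N) (Fin N) ℂ,
          ∑ j, dg (fun z => (σ z : ℂ) • PF F₁ z) i j y * Z j = ((σ y : ℂ) • PF F₁ y) * Z i := by
        intro Z
        unfold dg
        rw [Finset.sum_eq_single i]
        · simp
        · intro j _ hj
          simp [Ne.symm hj]
        · simp
      simp only [e2, Finset.sum_sub_distrib, TF_sc, e3]
      rw [pdm_sub hY2 hY1, mul_sub]
      abel
    have e4 : ∀ i, (qF s A F i x - qF (sc σ) A₁ F₁ i x) * ((if i = a then 1 else 0) + G a i x) =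
        qF s A F i x * pdm i (fun z => (F z)⁻¹ * X a z) x -
        qF (sc σ) A₁ F₁ i x * pdm i (fun z => (F z)⁻¹ * X a z) x := by
      intro i
      rw [hGΩ a i x hx, sub_mul]
    have e5 : ∀ i, qF (sc σ) A₁ F₁ i x *
        pdm i (fun z => (F z)⁻¹ * X a z - (F₁ z)⁻¹ * X₁ a z) x =
        qF (sc σ) A₁ F₁ i x * pdm i (fun z => (F z)⁻¹ * X a z) x -
        qF (sc σ) A₁ F₁ i x * pdm i (fun z => (F₁ z)⁻¹ * X₁ a z) x := by
      intro i
      rw [pdm_sub hY2 hY1, mul_sub]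
    simp only [e1, e4, e5, Finset.sum_sub_distrib]
    have e6 := congrArg₂ (fun P Q => P - Q) m2 m1
    simp only [sub_zero] at e6
    rw [← e6]
    abel
  · have hDo : ∀ y ∉ Ω, (F y)⁻¹ * X a y - (F₁ y)⁻¹ * X₁ a y = 0 := by
      intro y hy
      rw [hFo y hy, hXo a y hy, sub_self]
    have hTo : ∀ i j, ∀ y ∉ Ω, TF s F i j y - dg (fun z => (σ z : ℂ) • PF F₁ z) i j y = 0 := by
      intro i j y hy
      rw [← TF_sc, TF_off hoff hFo i j hy, sub_self]
    have z1 : ∀ i, pdm i (fun y => (∑ j, (TF s F i j y -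
          dg (fun z => (σ z : ℂ) • PF F₁ z) i j y) * ((if j = a then 1 else 0) + G a j y)) +
        ((σ y : ℂ) • PF F₁ y) * pdm i (fun z => (F z)⁻¹ * X a z - (F₁ z)⁻¹ * X₁ a z) y) x = 0 := by
      intro i
      refine pdm_off hreg (hin i) (fun y hy => ?_) hx i
      rw [pdm_off hreg hD hDo hy i, mul_zero, add_zero]
      exact Finset.sum_eq_zero fun j _ => by rw [hTo i j y hy, zero_mul]
    have z2 : ∀ i, (qF s A F i x - qF (sc σ) A₁ F₁ i x) *
        ((if i = a then 1 else 0) + G a i x) = 0 := by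
      intro i
      rw [qF_off hreg hoff hAo hF hF₁ hFo i hx, sub_self, zero_mul]
    have z3 : ∀ i, qF (sc σ) A₁ F₁ i x *
        pdm i (fun z => (F z)⁻¹ * X a z - (F₁ z)⁻¹ * X₁ a z) x = 0 := by
      intro i
      rw [pdm_off hreg hD hDo hx i, mul_zero]
    simp only [z1, z2, z3, Finset.sum_const_zero, add_zero]

end Vale.Agent.P088.LR.U.H53
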