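import Vale.Agent.P088.H53.UCoreA

/-!
# P088, theorem J, row CORE: the reduced data
-/

open MeasureTheory Set Filter Topology
open scoped ContDiff Matrix

noncomputable section

namespace Vale.Agent.P088.LR.U.H53

open CF H158

variable {n N : ℕ}

theorem smM_scB {σ : V n → ℝ} (hσ : ContDiff ℝ ∞ σ) : SmM (sc σ) := by
  intro i j
  have e : (fun x => sc σ x i j) = fun x => σ x * (1 : Matrix (Fin n) (Fin n) ℝ) i j := by
    funext x; simp [sc]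
  rw [e]
  exact hσ.mul contDiff_const

theorem symm_scB (σ : V n → ℝ) (x : V n) : (sc σ x).IsSymm := by
  unfold sc
  rw [Matrix.IsSymm, Matrix.transpose_smul, Matrix.transpose_one]

/-- The inverse of `σ F₁* F₁`. -/
def tauI (σ : V n → ℝ) (F : MC n N) : MC n N := fun z =>
  (((σ z)⁻¹ : ℝ) : ℂ) • ((F z)⁻¹ * ((F z)⁻¹)ᴴ)

theorem smC_tauI {σ : V n → ℝ} (hσ : ContDiff ℝ ∞ σ) (hp : ∀ x, 0 < σ x) {F : MC n N}
    (hFi : SmC fun x => (F x)⁻¹) : SmC (tauI σ F) :=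
  smC_rsmul (hσ.inv fun x => (hp x).ne') (SmC_mul hFi (SmC_star hFi))

theorem tau_mul {σ : V n → ℝ} (hp : ∀ x, 0 < σ x) {F : MC n N} (hu : ∀ x, IsUnit (F x).det)
    (x : V n) : ((σ x : ℂ) • PF F x) * tauI σ F x = 1 := by
  unfold tauI PF
  have h0 : (σ x : ℂ) ≠ 0 := by exact_mod_cast (hp x).ne'
  rw [Matrix.smul_mul, Matrix.mul_smul, smul_smul, Complex.ofReal_inv, mul_inv_cancel₀ h0, one_smul]
  have h1 : (F x)ᴴ * F x * ((F x)⁻¹ * ((F x)⁻¹)ᴴ) = (F x)ᴴ * (F x * (F x)⁻¹) * ((F x)⁻¹)ᴴ := by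
    simp only [Matrix.mul_assoc]
  rw [h1, Matrix.mul_nonsing_inv _ (hu x), Matrix.mul_one, ← Matrix.conjTranspose_mul,
    Matrix.nonsing_inv_mul _ (hu x), Matrix.conjTranspose_one]

/-- **The reduced data.** -/
theorem bku (hRED : RowREDU) {Ω : Set (V n)} (hΩ : IsOpen Ω) (hbd : Bornology.IsBounded Ω)
    (hreg : interior (closure Ω) = Ω) (hsub : Ω ⊆ bls n)
    {σ : V n → ℝ} {s : MF n} (hσ : ContDiff ℝ ∞ σ) (hp : ∀ x, 0 < σ x) (hs : SmM s)
    (hsym : ∀ x, (s x).IsSymm) (hoff : ∀ x ∉ Ω, s x = sc σ x) {A₁ A : Cn n N} (hA₁ : SmU A₁)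
    (hA : SmU A) (hAo : ∀ i, ∀ x ∉ Ω, A i x = A₁ i x) {F₁ F : MC n N}
    (hF₁ : SmC F₁) (hF : SmC F) (hF₁i : SmC fun x => (F₁ x)⁻¹)
    (hu₁ : ∀ x, IsUnit (F₁ x).det) (hu : ∀ x, IsUnit (F x).det)
    (hFo : ∀ x ∉ Ω, F x = F₁ x) (h1 : ∀ x ∈ Ω, LaC (sc σ) A₁ F₁ x = 0)
    (h2 : ∀ x ∈ Ω, LaC s A F x = 0) (hOr : OrU Ω (sc σ) A₁ s A) :
    BkU Ω (fun z => (σ z : ℂ) • PF F₁ z) (tauI σ F₁) (qF (sc σ) A₁ F₁)
      (fun i j x => TF s F i j x - dg (fun z => (σ z : ℂ) • PF F₁ z) i j x)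
      (fun i x => qF s A F i x - qF (sc σ) A₁ F₁ i x) := by
  obtain ⟨d1, d2, hst⟩ := hRED Ω hΩ hbd hreg (sc σ) s (smM_scB hσ) hs (symm_scB σ) hsym hoff
    A₁ A hA₁ hA hAo F₁ F hF₁ hF hu₁ hu hFo h1 h2 hOr
  have hτ : SmC (fun z => (σ z : ℂ) • PF F₁ z) := smC_rsmul hσ (smC_PF hF₁)
  have hq : ∀ i, SmC (fun x => qF s A F i x - qF (sc σ) A₁ F₁ i x) := fun i =>
    smC_sub (smC_qF hs hA hF i) (smC_qF (smM_scB hσ) hA₁ hF₁ i)
  have hq0 : ∀ i, ∀ x ∉ Ω, qF s A F i x - qF (sc σ) A₁ F₁ i x = 0 := fun i x hx => by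
    rw [qF_off hreg hoff hAo hF hF₁ hFo i hx, sub_self]
  refine
    { op := hΩ
      sub := hsub
      sτ := hτ
      si := smC_tauI hσ hp hF₁i
      inv := tau_mul hp hu₁
      sκ := smC_qF (smM_scB hσ) hA₁ hF₁
      sh := fun i j => smC_sub (smC_TF hs hF i j) (smC_dg hτ i j)
      sq := hq
      sym := fun i j => ?_
      h0 := fun i j x hx => ?_
      q0 := hq0
      dq := fun x => ?_
      st := ?_ }
  · funext x
    have e1 : TF s F i j x = TF s F j i x := by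
      unfold TF
      rw [(hsym x).apply j i]
    have e2 : dg (fun z => (σ z : ℂ) • PF F₁ z) i j x = dg (fun z => (σ z : ℂ) • PF F₁ z) j i x := by
      unfold dg
      by_cases h : i = j
      · subst h; rfl
      · rw [if_neg h, if_neg (Ne.symm h)]
    rw [e1, e2]
  · show TF s F i j x - dg (fun z => (σ z : ℂ) • PF F₁ z) i j x = 0
    rw [← TF_sc, TF_off hoff hFo i j hx, sub_self]
  · by_cases hx : x ∈ Ω
    · have e : ∀ i, pdm i (fun x => qF s A F i x - qF (sc σ) A₁ F₁ i x) x =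
          pdm i (qF s A F i) x - pdm i (qF (sc σ) A₁ F₁ i) x := fun i =>
        pdm_sub (smC_qF hs hA hF i) (smC_qF (smM_scB hσ) hA₁ hF₁ i) i x
      simp only [e, Finset.sum_sub_distrib]
      rw [d1 x hx, d2 x hx, sub_self]
    · exact Finset.sum_eq_zero fun i _ => pdm_off hreg (hq i) (hq0 i) hx i
  · have e1 : (dg fun z => (σ z : ℂ) • PF F₁ z) = TF (sc σ) F₁ := by
      funext i j x
      exact (TF_sc σ F₁ i j x).symm
    have e2 : (fun i j x => dg (fun z => (σ z : ℂ) • PF F₁ z) i j x +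
        (TF s F i j x - dg (fun z => (σ z : ℂ) • PF F₁ z) i j x)) = TF s F := by
      funext i j x
      abel
    have e3 : (fun i x => qF (sc σ) A₁ F₁ i x + (qF s A F i x - qF (sc σ) A₁ F₁ i x)) =
        qF s A F := by
      funext i x
      abel
    rw [e2, e3, e1]
    exact hst

end Vale.Agent.P088.LR.U.H53
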